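import Vale.Agent.P032.H852.Om
import Vale.Agent.P032.H679.WSplit

/-!
# P032: columns with the oriented letters of a 5-centre, without the positions of the rays

`OCol`     : columns of letters with oriented letters (circle `k0`; `10` on all other circles);
`OEv`      : the rules for the oriented columns before and after a time; the difference rule `Nx`
holds in every mixture;  `oev_of` : they hold for limit columns with their positions;
`osplit`   : decomposition of the simultaneous changes (helper532's `split`), the rays do not occur;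
`OrC`      : a circle of a 5-centre with its rays in positive order;
`OrC.turn` : one turn for the oriented columns;  `OrC.label` : an invariant of the tight events.
-/

open Set Filter Topology Metric

noncomputable section

namespace Vale.Agent.P032.H852

open Vale.Agent.P032.Six Vale.Agent.P032.Sweep Vale.Agent.P032.S5.H767 Vale.Agent.P032.S5.H122
  Vale.Agent.P032.H187 Vale.Agent.P032.H93 Vale.Agent.P032.H326 Vale.Agent.P032.H532

section rules

variable {κ Λ : Type} {D : κ → κ → Prop} {K : κ → Λ → Finset (Fin 6)} {C : κ → Finset (Fin 6)}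
  {k0 : κ} {P : κ × Fin 6 → Finset (Fin 6)}

/-- columns of letters and oriented letters -/
abbrev OCol (κ Λ : Type) : Type := κ × Fin 6 → Λ × Fin 11

/-- the letters of an oriented column -/
def ltr (g : OCol κ Λ) : κ × Fin 6 → Λ := fun s => (g s).1

/-- the oriented letters of a palette -/
def ors (P : Finset (Fin 6)) : Finset (Fin 11) := {om (fun _ => 0) P, om (fun _ => 3) P}

theorem om_mem_ors (m : Fin 5 → ℤ) (P : Finset (Fin 6)) : om m P ∈ ors P := by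
  unfold ors
  rw [Finset.mem_insert, Finset.mem_singleton]
  have st : sg 0 = true := by decide
  have sf : sg 3 = false := by decide
  by_cases h : om m P = 10
  · by_cases h0 : om (fun _ => 0) P = 10
    · left; rw [h, h0]
    · rcases om_ne h0 with ⟨i, rfl⟩ | ⟨i, rfl⟩
      · rw [om_pair] at h; exact absurd h (om_fin i _).1
      · rw [om_tri] at h; exact absurd h (om_fin i _).2.1
  · rcases om_ne h with ⟨i, rfl⟩ | ⟨i, rfl⟩
    · rw [om_pair, om_pair, om_pair, st, sf]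
      cases sg (m i)
      · exact Or.inr rfl
      · exact Or.inl rfl
    · rw [om_tri, om_tri, om_tri, st, sf]
      cases sg (m i)
      · exact Or.inr rfl
      · exact Or.inl rfl

/-- the rule for one place -/
def U1 (K : κ → Λ → Finset (Fin 6)) (k0 : κ) (s : κ × Fin 6) (a : Λ × Fin 11) : Prop :=
  (s.1 = k0 → a.2 ∈ ors (K k0 a.1)) ∧ (s.1 ≠ k0 → a.2 = 10)

/-- the difference rule for neighbouring places of the circle `k0` -/
def B2 (K : κ → Λ → Finset (Fin 6)) (k0 : κ) (a b : Λ × Fin 11) : Prop :=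
  Disjoint (K k0 a.1) (K k0 b.1) → a.2 ≠ 10 → b.2 ≠ 10 → Nx a.2 b.2

/-- the rules for the oriented columns before and after a time -/
structure OEv (D : κ → κ → Prop) (K : κ → Λ → Finset (Fin 6)) (C : κ → Finset (Fin 6)) (k0 : κ)
    (P : κ × Fin 6 → Finset (Fin 6)) (g g' : OCol κ Λ) : Prop where
  ev : EvN D K C P (ltr g) (ltr g')
  un : ∀ s, U1 K k0 s (g s) ∧ U1 K k0 s (g' s)
  nx : ∀ j a b, (a = g (k0, j) ∨ a = g' (k0, j)) → (b = g (k0, j + 1) ∨ b = g' (k0, j + 1)) →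
    B2 K k0 a b

open Classical in
/-- the oriented column of a state -/
def oc (K : κ → Λ → Finset (Fin 6)) (k0 : κ) (M : Fin 5 → ℤ) (h : κ × Fin 6 → Λ) : OCol κ Λ :=
  fun s => (h s, if s.1 = k0 then omc K k0 M h s.2 else 10)

theorem ltr_oc (M : Fin 5 → ℤ) (h : κ × Fin 6 → Λ) : ltr (oc K k0 M h) = h := rfl

theorem oc_k0 (M : Fin 5 → ℤ) (h : κ × Fin 6 → Λ) (j : Fin 6) :
    oc K k0 M h (k0, j) = (h (k0, j), omc K k0 M h j) := by
  unfold oc
  rw [if_pos rfl]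

theorem oc_ne {M : Fin 5 → ℤ} {h : κ × Fin 6 → Λ} {s : κ × Fin 6} (hs : s.1 ≠ k0) :
    oc K k0 M h s = (h s, 10) := by
  unfold oc
  rw [if_neg hs]

theorem u1_oc (M : Fin 5 → ℤ) (h : κ × Fin 6 → Λ) (s : κ × Fin 6) :
    U1 K k0 s (oc K k0 M h s) := by
  constructor
  · intro hs
    obtain ⟨c, j⟩ := s
    have hs : c = k0 := hs
    subst hs
    rw [oc_k0]
    exact om_mem_ors (fun i => M i + (j.val : ℤ)) (K c (h (c, j)))
  · intro hs
    rw [oc_ne hs]

/-- the oriented column of the shifted state -/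
theorem oc_shift (M : Fin 5 → ℤ) (h : κ × Fin 6 → Λ) :
    oc K k0 (fun i => M i + 1) (h ∘ rt κ) = oc K k0 M h ∘ rt κ := by
  funext s
  obtain ⟨c, j⟩ := s
  by_cases hc : c = k0
  · subst hc
    have e1 : oc K c (fun i => M i + 1) (h ∘ rt κ) (c, j) =
        (h (c, j + 1), omc K c (fun i => M i + 1) (h ∘ rt κ) j) := oc_k0 _ _ j
    have e2 : (oc K c M h ∘ rt κ) (c, j) = (h (c, j + 1), omc K c M h (j + 1)) := oc_k0 M h (j + 1)
    rw [e1, e2]
    exact congrArg (Prod.mk (h (c, j + 1))) (omc_shift M h j)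
  · have e1 : oc K k0 (fun i => M i + 1) (h ∘ rt κ) (c, j) = (h (c, j + 1), 10) :=
      oc_ne (s := (c, j)) hc
    have e2 : (oc K k0 M h ∘ rt κ) (c, j) = (h (c, j + 1), 10) := oc_ne (s := (c, j + 1)) hc
    rw [e1, e2]

theorem crs_self (M : Fin 5 → ℤ) : Crs M M := fun _ => ⟨le_rfl, by omega⟩

theorem b2_of {M M' : Fin 5 → ℤ} {g g' : κ × Fin 6 → Λ} (oM : Ord M) (oM' : Ord M')
    (hc : Crs M M' ∨ Crs M' M) (w : WLc K k0 M g) (t : WTc K k0 M g) (w' : WLc K k0 M' g')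
    (t' : WTc K k0 M' g') (j : Fin 6) :
    B2 K k0 (oc K k0 M g (k0, j)) (oc K k0 M' g' (k0, j + 1)) := by
  rw [oc_k0, oc_k0]
  exact fun hd h h' => omc_step oM oM' hc w t w' t' j hd h h'

/-- **the rules hold for the oriented columns of two states** -/
theorem oev_of {M M' : Fin 5 → ℤ} {h h' : κ × Fin 6 → Λ} (H : EvN D K C P h h') (oM : Ord M)
    (oM' : Ord M') (hc : Crs M M') (w : WLc K k0 M h) (t : WTc K k0 M h) (w' : WLc K k0 M' h')
    (t' : WTc K k0 M' h') : OEv D K C k0 P (oc K k0 M h) (oc K k0 M' h') := by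
  refine ⟨H, fun s => ⟨u1_oc M h s, u1_oc M' h' s⟩, ?_⟩
  rintro j a b (rfl | rfl) (rfl | rfl)
  · exact b2_of oM oM (Or.inl (crs_self M)) w t w t j
  · exact b2_of oM oM' (Or.inl hc) w t w' t' j
  · exact b2_of oM' oM (Or.inr hc) w' t' w t j
  · exact b2_of oM' oM' (Or.inl (crs_self M')) w' t' w' t' j

/-- the rules go to legal mixtures -/
theorem OEv.mix {g g' m : OCol κ Λ} (H : OEv D K C k0 P g g') (hm : ∀ s, m s = g s ∨ m s = g' s)
    (hl : LgN D K C (ltr m)) : OEv D K C k0 P g m ∧ OEv D K C k0 P m g' := by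
  obtain ⟨e1, e2⟩ := H679.evN_mix H.ev (m := ltr m) (fun s => by
    rcases hm s with e | e
    · left; unfold ltr; rw [e]
    · right; unfold ltr; rw [e]) hl
  have hU : ∀ s, U1 K k0 s (m s) := fun s => by
    rcases hm s with e | e
    · rw [e]; exact (H.un s).1
    · rw [e]; exact (H.un s).2
  refine ⟨⟨e1, fun s => ⟨(H.un s).1, hU s⟩, fun j a b ha hb => H.nx j a b ?_ ?_⟩,
    ⟨e2, fun s => ⟨hU s, (H.un s).2⟩, fun j a b ha hb => H.nx j a b ?_ ?_⟩⟩
  · rcases ha with rfl | rfl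
    · exact Or.inl rfl
    · exact hm _
  · rcases hb with rfl | rfl
    · exact Or.inl rfl
    · exact hm _
  · rcases ha with rfl | rfl
    · exact hm _
    · exact Or.inr rfl
  · rcases hb with rfl | rfl
    · exact hm _
    · exact Or.inr rfl

/-- the binary rules of the letters -/
def RN (D : κ → κ → Prop) (K : κ → Λ → Finset (Fin 6)) (C : κ → Finset (Fin 6))
    (s t : κ × Fin 6) (a b : Λ × Fin 11) : Prop :=
  (AdjD D s t → Disjoint (K s.1 a.1) (K t.1 b.1)) ∧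
    (t = (s.1, s.2 + 3) → 2 ≤ (C s.1 \ (K s.1 a.1 ∪ K s.1 b.1)).card)

theorem lgl_iff {g : OCol κ Λ} : Lgl (RN D K C) g ↔ LgN D K C (ltr g) := by
  constructor
  · intro H
    exact ⟨fun s t hst => (H s t).1 hst, fun c j => (H (c, j) (c, j + 3)).2 rfl⟩
  · rintro ⟨h1, h2⟩ s t
    refine ⟨h1 s t, ?_⟩
    rintro rfl
    exact h2 s.1 s.2

/-- **Decomposition of the events of oriented columns**: the rays do not occur. -/
theorem osplit [Finite κ] {Q : OCol κ Λ → OCol κ Λ → Prop} (hr : ∀ g, Q g g)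
    (ht : ∀ a b c, Q a b → Q b c → Q a c)
    (hT : ∀ g g', OEv D K C k0 P g g' → Tight (RN D K C) g g' → Q g g')
    {g g' : OCol κ Λ} (H : OEv D K C k0 P g g') : Q g g' := by
  refine split (R := RN D K C) (Ev := OEv D K C k0 P) (Q := Q) (fun g g' h => ?_)
    (fun g g' m h hm hl => h.mix hm (lgl_iff.1 hl)) hr ht hT H
  exact ⟨lgl_iff.2 h.ev.leg, lgl_iff.2 h.ev.leg'⟩

/-- a place must change before another one -/
theorem pre_oc {g g' : OCol κ Λ} {s t : κ × Fin 6} (H : Pre (RN D K C) g g' s t) :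
    (ltr g) s ≠ (ltr g') s ∧ (ltr g) t ≠ (ltr g') t ∧ s ≠ t ∧
    ((AdjD D s t ∧ ¬ Disjoint (K s.1 (ltr g s)) (K t.1 (ltr g' t))) ∨
      (AdjD D t s ∧ ¬ Disjoint (K t.1 (ltr g' t)) (K s.1 (ltr g s))) ∨
      (t = (s.1, s.2 + 3) ∧ (C s.1 \ (K s.1 (ltr g s) ∪ K s.1 (ltr g' t))).card < 2) ∨
      (s = (t.1, t.2 + 3) ∧ (C t.1 \ (K t.1 (ltr g' t) ∪ K t.1 (ltr g s))).card < 2)) ∨
    ¬ (LgN D K C (ltr g) ∧ LgN D K C (ltr g')) := by
  by_cases hL : LgN D K C (ltr g) ∧ LgN D K C (ltr g')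
  swap
  · exact Or.inr hL
  obtain ⟨l1, l2⟩ := hL
  obtain ⟨h1, h2, h3, h4⟩ := H
  left
  have r1 : Lgl (RN D K C) g := lgl_iff.2 l1
  have r2 : Lgl (RN D K C) g' := lgl_iff.2 l2
  have key : ∀ a b : Λ × Fin 11, a.1 = (ltr g') s → b.1 = (ltr g') t →
      RN D K C s t a b ∧ RN D K C t s b a := by
    intro a b ha hb
    constructor
    · have := r2 s t
      unfold RN at this ⊢
      rw [ha, hb]; exact this
    · have := r2 t s
      unfold RN at this ⊢
      rw [ha, hb]; exact this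
  have key' : ∀ a b : Λ × Fin 11, a.1 = (ltr g) s → b.1 = (ltr g) t →
      RN D K C s t a b ∧ RN D K C t s b a := by
    intro a b ha hb
    constructor
    · have := r1 s t
      unfold RN at this ⊢
      rw [ha, hb]; exact this
    · have := r1 t s
      unfold RN at this ⊢
      rw [ha, hb]; exact this
  refine ⟨fun e => ?_, fun e => ?_, h3, ?_⟩
  · obtain ⟨k1, k2⟩ := key (g s) (g' t) e rfl
    rcases h4 with h4 | h4
    · exact h4 k1
    · exact h4 k2
  · obtain ⟨k1, k2⟩ := key' (g s) (g' t) rfl e.symm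
    rcases h4 with h4 | h4
    · exact h4 k1
    · exact h4 k2
  · rcases h4 with h4 | h4
    · by_cases c1 : AdjD D s t → Disjoint (K s.1 (g s).1) (K t.1 (g' t).1)
      · have c2 : ¬ (t = (s.1, s.2 + 3) → 2 ≤ (C s.1 \ (K s.1 (g s).1 ∪ K s.1 (g' t).1)).card) :=
          fun c2 => h4 ⟨c1, c2⟩
        push Not at c2
        exact Or.inr (Or.inr (Or.inl c2))
      · push Not at c1
        exact Or.inl c1
    · by_cases c1 : AdjD D t s → Disjoint (K t.1 (g' t).1) (K s.1 (g s).1)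
      · have c2 : ¬ (s = (t.1, t.2 + 3) → 2 ≤ (C t.1 \ (K t.1 (g' t).1 ∪ K t.1 (g s).1)).card) :=
          fun c2 => h4 ⟨c1, c2⟩
        push Not at c2
        exact Or.inr (Or.inr (Or.inr c2))
      · push Not at c1
        exact Or.inr (Or.inl c1)

end rules

/-! ### One turn -/

section turn

variable {κ Λ : Type} {T : ℂ → Set (Fin 6)} {N : Fin 6 → Fin 6} {zz : κ → ℂ} {D : κ → κ → Prop}
  {K : κ → Λ → Finset (Fin 6)} {C : κ → Finset (Fin 6)} {lt : κ → Set (Fin 6) → Λ} {φ : ℝ}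
  {k0 : κ} {ρ : Fin 5 → ℝ}

/-- a circle of a 5-centre with its rays in positive cyclic order, with the window rules for
diagonals and triples -/
structure OrC (T : ℂ → Set (Fin 6)) (zz : κ → ℂ) (N : Fin 6 → Fin 6) (K : κ → Λ → Finset (Fin 6))
    (lt : κ → Set (Fin 6) → Λ) (k0 : κ) (ρ : Fin 5 → ℝ) (φ : ℝ) : Prop where
  ray : RayC T zz N K lt k0 ρ
  ordL : ∀ u, Ord (ML ρ φ u)
  ordR : ∀ u, Ord (MR ρ φ u)
  wtL : ∀ u, ∀ g ∈ LC (Xl T zz φ lt) u, WTc K k0 (ML ρ φ u) g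
  wtR : ∀ u, ∀ g ∈ RC (Xl T zz φ lt) u, WTc K k0 (MR ρ φ u) g

namespace OrC

theorem oevLR (F : OrC T zz N K lt k0 ρ φ) {u : ℝ} {P : κ × Fin 6 → Finset (Fin 6)}
    {h h' : κ × Fin 6 → Λ} (hh : h ∈ LC (Xl T zz φ lt) u) (hh' : h' ∈ RC (Xl T zz φ lt) u)
    (H : EvN D K C P h h') :
    OEv D K C k0 P (oc K k0 (ML ρ φ u) h) (oc K k0 (MR ρ φ u) h') :=
  oev_of H (F.ordL u) (F.ordR u) (crs_LR ρ φ u) (F.ray.wl_LC hh).1 (F.wtL u h hh)
    (F.ray.wl_RC hh').1 (F.wtR u h' hh')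

theorem oevEq (F : OrC T zz N K lt k0 ρ φ) {u : ℝ} (hu : ML ρ φ u = MR ρ φ u)
    {P : κ × Fin 6 → Finset (Fin 6)} {h h' : κ × Fin 6 → Λ}
    (hh : h ∈ LC (Xl T zz φ lt) u ∪ RC (Xl T zz φ lt) u)
    (hh' : h' ∈ LC (Xl T zz φ lt) u ∪ RC (Xl T zz φ lt) u) (H : EvN D K C P h h') :
    OEv D K C k0 P (oc K k0 (ML ρ φ u) h) (oc K k0 (ML ρ φ u) h') := by
  have key : ∀ g ∈ LC (Xl T zz φ lt) u ∪ RC (Xl T zz φ lt) u,
      WLc K k0 (ML ρ φ u) g ∧ WTc K k0 (ML ρ φ u) g := by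
    rintro g (hg | hg)
    · exact ⟨(F.ray.wl_LC hg).1, F.wtL u g hg⟩
    · rw [hu]; exact ⟨(F.ray.wl_RC hg).1, F.wtR u g hg⟩
  exact oev_of H (F.ordL u) (F.ordL u) (crs_self _) (key h hh).1 (key h hh).2 (key h' hh').1
    (key h' hh').2

/-- **One turn for oriented columns.** -/
theorem turn [Finite κ] [Finite Λ] (F : OrC T zz N K lt k0 ρ φ)
    {Leg : (κ × Fin 6 → Λ) → Prop} (w : Sw (Xl T zz φ lt) Leg)
    {P : ℝ → κ × Fin 6 → Finset (Fin 6)}
    (ev : ∀ u, ∀ h ∈ LC (Xl T zz φ lt) u ∪ RC (Xl T zz φ lt) u,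
      ∀ h' ∈ LC (Xl T zz φ lt) u ∪ RC (Xl T zz φ lt) u, EvN D K C (P u) h h')
    {Q : OCol κ Λ → OCol κ Λ → Prop} (tr : ∀ x y z, Q x y → Q y z → Q x z) (a : ℝ)
    (loc : ∀ u ∈ Ioo a (a + 1), ∀ g g', OEv D K C k0 (P u) g g' → Q g g') :
    ∀ h ∈ LC (Xl T zz φ lt) a, ∀ h' ∈ RC (Xl T zz φ lt) a,
      OEv D K C k0 (P a) (oc K k0 (ML ρ φ a) h) (oc K k0 (MR ρ φ a) h') ∧
      Q (oc K k0 (MR ρ φ a) h') (oc K k0 (ML ρ φ a) h ∘ rt κ) := by
  intro h hh h' hh'
  refine ⟨F.oevLR hh hh' (ev a h (Or.inl hh) h' (Or.inr hh')), ?_⟩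
  have h1 := RayC.turn_sw w ρ
    (Q := fun x y => Q (oc K k0 x.1 x.2) (oc K k0 y.1 y.2))
    (fun x y z h1 h2 => tr _ _ _ h1 h2) a
    (fun u hu e g hg g' hg' => loc u hu _ _ (F.oevEq e hg hg' (ev u g hg g' hg')))
    (fun u hu _ g hg g' hg' => loc u hu _ _ (F.oevLR hg hg' (ev u g (Or.inl hg) g' (Or.inr hg'))))
    h hh h' hh'
  dsimp only at h1
  rwa [oc_shift] at h1

/-- **A label which is invariant under the tight events** has the same value after the time `a` and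
on the shifted column before the time `a`. -/
theorem label [Finite κ] [Finite Λ] (F : OrC T zz N K lt k0 ρ φ)
    {Leg : (κ × Fin 6 → Λ) → Prop} (w : Sw (Xl T zz φ lt) Leg)
    {P : ℝ → κ × Fin 6 → Finset (Fin 6)}
    (ev : ∀ u, ∀ h ∈ LC (Xl T zz φ lt) u ∪ RC (Xl T zz φ lt) u,
      ∀ h' ∈ LC (Xl T zz φ lt) u ∪ RC (Xl T zz φ lt) u, EvN D K C (P u) h h')
    {A : Type} (f : OCol κ Λ → A) (a : ℝ)
    (inv : ∀ u ∈ Ioo a (a + 1), ∀ g g', OEv D K C k0 (P u) g g' → Tight (RN D K C) g g' →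
      f g = f g') :
    ∀ h ∈ LC (Xl T zz φ lt) a, ∀ h' ∈ RC (Xl T zz φ lt) a,
      OEv D K C k0 (P a) (oc K k0 (ML ρ φ a) h) (oc K k0 (MR ρ φ a) h') ∧
      f (oc K k0 (MR ρ φ a) h') = f (oc K k0 (ML ρ φ a) h ∘ rt κ) :=
  F.turn w ev (Q := fun x y => f x = f y) (fun _ _ _ h1 h2 => h1.trans h2) a
    fun u hu _ _ H => osplit (Q := fun x y => f x = f y) (fun _ => rfl)
      (fun _ _ _ h1 h2 => h1.trans h2) (fun g g' h1 h2 => inv u hu g g' h1 h2) H

end OrC

/-- the same over the frame of helper93 -/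
theorem label_trk [Finite κ] [Finite Λ] {U : Fin 6 → Set ℂ} (F : Trk U T zz N D K C lt k0 ρ)
    (O : OrC T zz N K lt k0 ρ φ) {A : Type} (f : OCol κ Λ → A) (a : ℝ)
    (inv : ∀ u ∈ Ioo a (a + 1), ∀ g g', OEv D K C k0 (PN T zz N φ u) g g' →
      Tight (RN D K C) g g' → f g = f g') :
    ∀ h ∈ LC (Xl T zz φ lt) a, ∀ h' ∈ RC (Xl T zz φ lt) a,
      OEv D K C k0 (PN T zz N φ a) (oc K k0 (ML ρ φ a) h) (oc K k0 (MR ρ φ a) h') ∧
      f (oc K k0 (MR ρ φ a) h') = f (oc K k0 (ML ρ φ a) h ∘ rt κ) :=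
  O.label (F.fr.sw φ) (P := PN T zz N φ) (fun _ _ hg _ hg' => F.fr.ev hg hg') f a inv

end turn

end Vale.Agent.P032.H852
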