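import Vale.Agent.P032.H852.Ocol
import Vale.Agent.P032.H423.Fr3N

/-!
# P032: oriented columns of a 5-centre over any relation of the letters

`OEvG E K k0 g g'` : the rules `OEv` with a relation `E` of the letters in place of `EvN`;
`MixE D K C E`     : the relation `E` is between legal columns and goes to legal mixtures;
`mixE_evN`, `mixE_evS`, `mixE_evN3`, `mixE_evS3` : this holds for the relations of 93, 747, 423;
`OEvG.mix`, `osplitG`, `OrC.oevLRg`, `OrC.oevEqg`, `OrC.turnG`, `OrC.labelG` : as for `OEv`.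
-/

open Set Filter Topology Metric

noncomputable section

namespace Vale.Agent.P032.H852

open Vale.Agent.P032.Six Vale.Agent.P032.Sweep Vale.Agent.P032.S5.H767 Vale.Agent.P032.S5.H122
  Vale.Agent.P032.H187 Vale.Agent.P032.H93 Vale.Agent.P032.H326 Vale.Agent.P032.H532
  Vale.Agent.P032.H747 Vale.Agent.P032.H423

section rules

variable {κ Λ : Type} {D : κ → κ → Prop} {K : κ → Λ → Finset (Fin 6)} {C : κ → Finset (Fin 6)}
  {k0 : κ} {P : κ × Fin 6 → Finset (Fin 6)} {E : (κ × Fin 6 → Λ) → (κ × Fin 6 → Λ) → Prop}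

/-- the rules for the oriented columns before and after a time, with the relation `E` of the
letters -/
structure OEvG (E : (κ × Fin 6 → Λ) → (κ × Fin 6 → Λ) → Prop) (K : κ → Λ → Finset (Fin 6))
    (k0 : κ) (g g' : OCol κ Λ) : Prop where
  ev : E (ltr g) (ltr g')
  un : ∀ s, U1 K k0 s (g s) ∧ U1 K k0 s (g' s)
  nx : ∀ j a b, (a = g (k0, j) ∨ a = g' (k0, j)) → (b = g (k0, j + 1) ∨ b = g' (k0, j + 1)) →
    B2 K k0 a b

theorem oevG_iff {g g' : OCol κ Λ} :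
    OEvG (EvN D K C P) K k0 g g' ↔ OEv D K C k0 P g g' :=
  ⟨fun h => ⟨h.ev, h.un, h.nx⟩, fun h => ⟨h.ev, h.un, h.nx⟩⟩

theorem OEvG.imp {E' : (κ × Fin 6 → Λ) → (κ × Fin 6 → Λ) → Prop} {g g' : OCol κ Λ}
    (H : OEvG E K k0 g g') (h : E (ltr g) (ltr g') → E' (ltr g) (ltr g')) :
    OEvG E' K k0 g g' := ⟨h H.ev, H.un, H.nx⟩

/-- the relation is between legal columns and goes to legal mixtures -/
structure MixE (D : κ → κ → Prop) (K : κ → Λ → Finset (Fin 6)) (C : κ → Finset (Fin 6))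
    (E : (κ × Fin 6 → Λ) → (κ × Fin 6 → Λ) → Prop) : Prop where
  leg : ∀ h h', E h h' → LgN D K C h ∧ LgN D K C h'
  mix : ∀ h h' m, E h h' → (∀ s, m s = h s ∨ m s = h' s) → LgN D K C m → E h m ∧ E m h'

theorem mixE_evN : MixE D K C (EvN D K C P) where
  leg := fun _ _ H => ⟨H.leg, H.leg'⟩
  mix := fun _ _ _ H hm hl => H679.evN_mix H hm hl

theorem mixE_evS {G : Geo κ} (hG : ∀ s k, ¬ G.At s k) {two : κ → Option (Fin 6 → Fin 6)}
    {OK : κ × Fin 6 → Finset (Fin 6) → Prop} : MixE D K C (EvS D K C G two OK P) where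
  leg := fun _ _ H => ⟨H.leg, H.leg'⟩
  mix := fun h h' m H hm hl => by
    obtain ⟨e1, e2⟩ := H679.evN_mix H.toEvN hm hl
    refine ⟨⟨e1, H.co, H.ctr, H.third, fun s k _ h5 => (hG s k h5).elim,
      fun k ν hk j l h5 => H.anti k ν hk j l ?_, H.ok⟩,
      ⟨e2, H.co, H.ctr, H.third, fun s k _ h5 => (hG s k h5).elim,
      fun k ν hk j l h5 => H.anti k ν hk j l ?_, H.ok⟩⟩
    · rcases h5 with rfl | rfl
      · exact Or.inl rfl
      · exact hm _
    · rcases h5 with rfl | rfl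
      · exact hm _
      · exact Or.inr rfl

theorem evN3_mix {A : κ × Fin 6 → κ → Prop} {h h' m : κ × Fin 6 → Λ} (H : EvN3 D K C A P h h')
    (hm : ∀ s, m s = h s ∨ m s = h' s) (hl : LgN D K C m) :
    EvN3 D K C A P h m ∧ EvN3 D K C A P m h' := by
  constructor
  · refine ⟨H.leg, hl, fun s => ?_, fun s t hst hA hs ht => ?_, H.nsub, H.csub, H.psub, H.thc,
      H.thp⟩
    · rcases hm s with e | e <;> rw [e]
      · exact (Finset.union_subset Finset.subset_union_left Finset.subset_union_left).trans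
          (H.pal s)
      · exact H.pal s
    · rcases hm t with e | e
      · rw [e]; exact Or.inl (H.leg.1 s t hst)
      · rcases hm s with e2 | e2
        · rw [e2]; exact Or.inr (Or.inl (H.leg.1 s t hst))
        · rw [e, e2]; exact H.swap s t hst hA hs ht
  · refine ⟨hl, H.leg', fun s => ?_, fun s t hst hA hs ht => ?_, H.nsub, H.csub, H.psub, H.thc,
      H.thp⟩
    · rcases hm s with e | e <;> rw [e]
      · exact H.pal s
      · exact (Finset.union_subset Finset.subset_union_right Finset.subset_union_right).trans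
          (H.pal s)
    · rcases hm s with e | e
      · rcases hm t with e2 | e2
        · rw [e, e2]; exact H.swap s t hst hA hs ht
        · rw [e2]; exact Or.inr (Or.inl (H.leg'.1 s t hst))
      · rw [e]; exact Or.inl (H.leg'.1 s t hst)

theorem mixE_evN3 {A : κ × Fin 6 → κ → Prop} : MixE D K C (EvN3 D K C A P) where
  leg := fun _ _ H => ⟨H.leg, H.leg'⟩
  mix := fun _ _ _ H hm hl => evN3_mix H hm hl

theorem mixE_evS3 {A : κ × Fin 6 → κ → Prop} {G : Geo κ} (hG : ∀ s k, ¬ G.At s k)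
    {two : κ → Option (Fin 6 → Fin 6)} {OK : κ × Fin 6 → Finset (Fin 6) → Prop} :
    MixE D K C (EvS3 D K C A G two OK P) where
  leg := fun _ _ H => ⟨H.leg, H.leg'⟩
  mix := fun h h' m H hm hl => by
    obtain ⟨e1, e2⟩ := evN3_mix H.toEvN3 hm hl
    refine ⟨⟨e1, H.co, H.ctr, H.third, fun s k _ h5 => (hG s k h5).elim,
      fun k ν hk j l h5 => H.anti k ν hk j l ?_, H.ok⟩,
      ⟨e2, H.co, H.ctr, H.third, fun s k _ h5 => (hG s k h5).elim,
      fun k ν hk j l h5 => H.anti k ν hk j l ?_, H.ok⟩⟩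
    · rcases h5 with rfl | rfl
      · exact Or.inl rfl
      · exact hm _
    · rcases h5 with rfl | rfl
      · exact hm _
      · exact Or.inr rfl

/-- a further condition on the two columns which goes to mixtures -/
theorem MixE.and (H : MixE D K C E) {F : (κ × Fin 6 → Λ) → (κ × Fin 6 → Λ) → Prop}
    (hF : ∀ h h' m, F h h' → (∀ s, m s = h s ∨ m s = h' s) → LgN D K C m → F h m ∧ F m h') :
    MixE D K C fun h h' => E h h' ∧ F h h' where
  leg := fun h h' H' => H.leg h h' H'.1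
  mix := fun h h' m H' hm hl =>
    ⟨⟨(H.mix h h' m H'.1 hm hl).1, (hF h h' m H'.2 hm hl).1⟩,
      ⟨(H.mix h h' m H'.1 hm hl).2, (hF h h' m H'.2 hm hl).2⟩⟩

/-- a condition on the letters of each place, both columns -/
theorem MixE.places (H : MixE D K C E) {F : κ × Fin 6 → Λ → Prop} :
    MixE D K C fun h h' => E h h' ∧ ∀ s, F s (h s) ∧ F s (h' s) :=
  H.and fun h h' m hF hm _ => by
    have hM : ∀ s, F s (m s) := fun s => by
      rcases hm s with e | e <;> rw [e]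
      · exact (hF s).1
      · exact (hF s).2
    exact ⟨fun s => ⟨(hF s).1, hM s⟩, fun s => ⟨hM s, (hF s).2⟩⟩

/-- **the rules hold for the oriented columns of two states** -/
theorem oevG_of {M M' : Fin 5 → ℤ} {h h' : κ × Fin 6 → Λ} (H : E h h') (oM : Ord M)
    (oM' : Ord M') (hc : Crs M M') (w : WLc K k0 M h) (t : WTc K k0 M h) (w' : WLc K k0 M' h')
    (t' : WTc K k0 M' h') : OEvG E K k0 (oc K k0 M h) (oc K k0 M' h') := by
  refine ⟨H, fun s => ⟨u1_oc M h s, u1_oc M' h' s⟩, ?_⟩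
  rintro j a b (rfl | rfl) (rfl | rfl)
  · exact b2_of oM oM (Or.inl (crs_self M)) w t w t j
  · exact b2_of oM oM' (Or.inl hc) w t w' t' j
  · exact b2_of oM' oM (Or.inr hc) w' t' w t j
  · exact b2_of oM' oM' (Or.inl (crs_self M')) w' t' w' t' j

/-- the rules go to legal mixtures -/
theorem OEvG.mix (hE : MixE D K C E) {g g' m : OCol κ Λ} (H : OEvG E K k0 g g')
    (hm : ∀ s, m s = g s ∨ m s = g' s) (hl : LgN D K C (ltr m)) :
    OEvG E K k0 g m ∧ OEvG E K k0 m g' := by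
  obtain ⟨e1, e2⟩ := hE.mix _ _ (ltr m) H.ev (fun s => by
    rcases hm s with e | e
    · left; unfold ltr; rw [e]
    · right; unfold ltr; rw [e]) hl
  have hU : ∀ s, U1 K k0 s (m s) := fun s => by
    rcases hm s with e | e
    · rw [e]; exact (H.un s).1
    · rw [e]; exact (H.un s).2
  refine ⟨⟨e1, fun s => ⟨(H.un s).1, hU s⟩, fun j a b ha hb => H.nx j a b ?_ ?_⟩,
    ⟨e2, fun s => ⟨hU s, (H.un s).2⟩, fun j a b ha hb => H.nx j a b ?_ ?_⟩⟩
  · rcases ha with rfl | rfl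
    · exact Or.inl rfl
    · exact hm _
  · rcases hb with rfl | rfl
    · exact Or.inl rfl
    · exact hm _
  · rcases ha with rfl | rfl
    · exact hm _
    · exact Or.inr rfl
  · rcases hb with rfl | rfl
    · exact hm _
    · exact Or.inr rfl

/-- **Decomposition of the events of oriented columns** over any relation of the letters which goes
to mixtures. -/
theorem osplitG [Finite κ] (hE : MixE D K C E) {Q : OCol κ Λ → OCol κ Λ → Prop}
    (hr : ∀ g, Q g g) (ht : ∀ a b c, Q a b → Q b c → Q a c)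
    (hT : ∀ g g', OEvG E K k0 g g' → Tight (RN D K C) g g' → Q g g')
    {g g' : OCol κ Λ} (H : OEvG E K k0 g g') : Q g g' := by
  refine split (R := RN D K C) (Ev := OEvG E K k0) (Q := Q) (fun g g' h => ?_)
    (fun g g' m h hm hl => h.mix hE hm (lgl_iff.1 hl)) hr ht hT H
  exact ⟨lgl_iff.2 (hE.leg _ _ h.ev).1, lgl_iff.2 (hE.leg _ _ h.ev).2⟩

end rules

/-! ### One turn -/

section turn

variable {κ Λ : Type} {T : ℂ → Set (Fin 6)} {N : Fin 6 → Fin 6} {zz : κ → ℂ} {D : κ → κ → Prop}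
  {K : κ → Λ → Finset (Fin 6)} {C : κ → Finset (Fin 6)} {lt : κ → Set (Fin 6) → Λ} {φ : ℝ}
  {k0 : κ} {ρ : Fin 5 → ℝ}

namespace OrC

theorem oevLRg (F : OrC T zz N K lt k0 ρ φ) {u : ℝ}
    {E : (κ × Fin 6 → Λ) → (κ × Fin 6 → Λ) → Prop}
    {h h' : κ × Fin 6 → Λ} (hh : h ∈ LC (Xl T zz φ lt) u) (hh' : h' ∈ RC (Xl T zz φ lt) u)
    (H : E h h') : OEvG E K k0 (oc K k0 (ML ρ φ u) h) (oc K k0 (MR ρ φ u) h') :=
  oevG_of H (F.ordL u) (F.ordR u) (crs_LR ρ φ u) (F.ray.wl_LC hh).1 (F.wtL u h hh)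
    (F.ray.wl_RC hh').1 (F.wtR u h' hh')

theorem oevEqg (F : OrC T zz N K lt k0 ρ φ) {u : ℝ} (hu : ML ρ φ u = MR ρ φ u)
    {E : (κ × Fin 6 → Λ) → (κ × Fin 6 → Λ) → Prop} {h h' : κ × Fin 6 → Λ}
    (hh : h ∈ LC (Xl T zz φ lt) u ∪ RC (Xl T zz φ lt) u)
    (hh' : h' ∈ LC (Xl T zz φ lt) u ∪ RC (Xl T zz φ lt) u) (H : E h h') :
    OEvG E K k0 (oc K k0 (ML ρ φ u) h) (oc K k0 (ML ρ φ u) h') := by
  have key : ∀ g ∈ LC (Xl T zz φ lt) u ∪ RC (Xl T zz φ lt) u,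
      WLc K k0 (ML ρ φ u) g ∧ WTc K k0 (ML ρ φ u) g := by
    rintro g (hg | hg)
    · exact ⟨(F.ray.wl_LC hg).1, F.wtL u g hg⟩
    · rw [hu]; exact ⟨(F.ray.wl_RC hg).1, F.wtR u g hg⟩
  exact oevG_of H (F.ordL u) (F.ordL u) (crs_self _) (key h hh).1 (key h hh).2 (key h' hh').1
    (key h' hh').2

/-- **One turn for oriented columns**, with a relation `E u` of the letters at the time `u`; at the
time `a` the relation `E₀` of a left and a right column. -/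
theorem turnG [Finite κ] [Finite Λ] (F : OrC T zz N K lt k0 ρ φ)
    {Leg : (κ × Fin 6 → Λ) → Prop} (w : Sw (Xl T zz φ lt) Leg) (a : ℝ)
    {E : ℝ → (κ × Fin 6 → Λ) → (κ × Fin 6 → Λ) → Prop}
    {E₀ : (κ × Fin 6 → Λ) → (κ × Fin 6 → Λ) → Prop}
    (ev : ∀ u ∈ Ioo a (a + 1), ∀ h ∈ LC (Xl T zz φ lt) u ∪ RC (Xl T zz φ lt) u,
      ∀ h' ∈ LC (Xl T zz φ lt) u ∪ RC (Xl T zz φ lt) u, E u h h')
    (ev₀ : ∀ h ∈ LC (Xl T zz φ lt) a, ∀ h' ∈ RC (Xl T zz φ lt) a, E₀ h h')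
    {Q : OCol κ Λ → OCol κ Λ → Prop} (tr : ∀ x y z, Q x y → Q y z → Q x z)
    (loc : ∀ u ∈ Ioo a (a + 1), ∀ g g', OEvG (E u) K k0 g g' → Q g g') :
    ∀ h ∈ LC (Xl T zz φ lt) a, ∀ h' ∈ RC (Xl T zz φ lt) a,
      OEvG E₀ K k0 (oc K k0 (ML ρ φ a) h) (oc K k0 (MR ρ φ a) h') ∧
      Q (oc K k0 (MR ρ φ a) h') (oc K k0 (ML ρ φ a) h ∘ rt κ) := by
  intro h hh h' hh'
  refine ⟨F.oevLRg hh hh' (ev₀ h hh h' hh'), ?_⟩
  have h1 := RayC.turn_sw w ρ
    (Q := fun x y => Q (oc K k0 x.1 x.2) (oc K k0 y.1 y.2))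
    (fun x y z h1 h2 => tr _ _ _ h1 h2) a
    (fun u hu e g hg g' hg' => loc u hu _ _ (F.oevEqg e hg hg' (ev u hu g hg g' hg')))
    (fun u hu _ g hg g' hg' =>
      loc u hu _ _ (F.oevLRg hg hg' (ev u hu g (Or.inl hg) g' (Or.inr hg'))))
    h hh h' hh'
  dsimp only at h1
  rwa [oc_shift] at h1

/-- **A label which is invariant under the tight events** has the same value after the time `a` and
on the shifted column before the time `a`. -/
theorem labelG [Finite κ] [Finite Λ] (F : OrC T zz N K lt k0 ρ φ)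
    {Leg : (κ × Fin 6 → Λ) → Prop} (w : Sw (Xl T zz φ lt) Leg) (a : ℝ)
    {E : ℝ → (κ × Fin 6 → Λ) → (κ × Fin 6 → Λ) → Prop}
    {E₀ : (κ × Fin 6 → Λ) → (κ × Fin 6 → Λ) → Prop}
    (ev : ∀ u ∈ Ioo a (a + 1), ∀ h ∈ LC (Xl T zz φ lt) u ∪ RC (Xl T zz φ lt) u,
      ∀ h' ∈ LC (Xl T zz φ lt) u ∪ RC (Xl T zz φ lt) u, E u h h')
    (ev₀ : ∀ h ∈ LC (Xl T zz φ lt) a, ∀ h' ∈ RC (Xl T zz φ lt) a, E₀ h h')
    (mx : ∀ u ∈ Ioo a (a + 1), MixE D K C (E u)) {A : Type} (f : OCol κ Λ → A)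
    (inv : ∀ u ∈ Ioo a (a + 1), ∀ g g', OEvG (E u) K k0 g g' → Tight (RN D K C) g g' →
      f g = f g') :
    ∀ h ∈ LC (Xl T zz φ lt) a, ∀ h' ∈ RC (Xl T zz φ lt) a,
      OEvG E₀ K k0 (oc K k0 (ML ρ φ a) h) (oc K k0 (MR ρ φ a) h') ∧
      f (oc K k0 (MR ρ φ a) h') = f (oc K k0 (ML ρ φ a) h ∘ rt κ) :=
  F.turnG w a ev ev₀ (Q := fun x y => f x = f y) (fun _ _ _ h1 h2 => h1.trans h2)
    fun u hu _ _ H => osplitG (mx u hu) (Q := fun x y => f x = f y) (fun _ => rfl)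
      (fun _ _ _ h1 h2 => h1.trans h2) (fun g g' h1 h2 => inv u hu g g' h1 h2) H

end OrC

/-- **a label over the frame `FrN3` of helper423**: `A₁` : slots at centres at the times between
`a` and `a + 1`, `A₀` : at the time `a` -/
theorem label_frN3 [Finite κ] [Finite Λ] {U : Fin 6 → Set ℂ} (F : FrN3 U T zz N D K C lt)
    (O : OrC T zz N K lt k0 ρ φ) (a : ℝ) {A₀ A₁ : κ × Fin 6 → κ → Prop}
    (hA₀ : ∀ s k, pos zz φ a s = zz k → A₀ s k)
    (hA₁ : ∀ u ∈ Ioo a (a + 1), ∀ s k, pos zz φ u s = zz k → A₁ s k)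
    {B : Type} (f : OCol κ Λ → B)
    (inv : ∀ u ∈ Ioo a (a + 1), ∀ g g', OEvG (EvN3 D K C A₁ (PN T zz N φ u)) K k0 g g' →
      Tight (RN D K C) g g' → f g = f g') :
    ∀ h ∈ LC (Xl T zz φ lt) a, ∀ h' ∈ RC (Xl T zz φ lt) a,
      OEvG (EvN3 D K C A₀ (PN T zz N φ a)) K k0 (oc K k0 (ML ρ φ a) h) (oc K k0 (MR ρ φ a) h') ∧
      f (oc K k0 (MR ρ φ a) h') = f (oc K k0 (ML ρ φ a) h ∘ rt κ) :=
  O.labelG (F.sw φ) a (E := fun u => EvN3 D K C A₁ (PN T zz N φ u))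
    (fun u hu _ hg _ hg' => F.ev (hA₁ u hu) hg hg')
    (fun _ hg _ hg' => F.ev hA₀ (Or.inl hg) (Or.inr hg')) (fun _ _ => mixE_evN3) f inv

end turn

end Vale.Agent.P032.H852
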