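import Vale.Agent.P032.H326.Track

/-!
# P032: oriented letters of a 5-centre

`Ord m`   : the five rays are in positive cyclic order;
`WT m P`  : the window rule for a triple `{i, i+1, i+3}`;
`om m P`  : the oriented letter (an integer mod 10, or 10 = no diagonal) of the palette names `P`
at a slot with the positions `m`; `colO` : the diagonal of an oriented letter;
`om_step` : two disjoint palettes at neighbouring slots, before or after a crossing, mixed or not:
the oriented letters differ by 2 or 3 mod 10 (`Nx`);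
`omc`     : the oriented letters of a column; `omc_step`, `omc_shift`, `omc_opp`.
-/

namespace Vale.Agent.P032.H852

open Vale.Agent.P032.H326 Vale.Agent.P032.Sweep Vale.Agent.P032.S5.H767 Vale.Agent.P032.S5.H122
  Vale.Agent.P032.H187 Vale.Agent.P032.H93

/-- positive cyclic order of the five rays -/
def Ord (m : Fin 5 → ℤ) : Prop := m 1 ≤ m 0 ∧ m 2 ≤ m 1 ∧ m 3 ≤ m 2 ∧ m 4 ≤ m 3 ∧ m 0 ≤ m 4 + 6

instance (m : Fin 5 → ℤ) : Decidable (Ord m) := by unfold Ord; infer_instance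

theorem Ord.add {m : Fin 5 → ℤ} (h : Ord m) (c : ℤ) : Ord fun i => m i + c := by
  obtain ⟨h1, h2, h3, h4, h5⟩ := h
  refine ⟨?_, ?_, ?_, ?_, ?_⟩ <;> dsimp only <;> omega

/-- the window rule for a triple -/
def WT (m : Fin 5 → ℤ) (P : Finset (Fin 6)) : Prop :=
  ∀ i : Fin 5, P = {i.castSucc, (i + 1).castSucc, (i + 3).castSucc} →
    sg (m (i + 2)) = !sg (m i) ∧ sg (m (i + 3)) = !sg (m i)

instance (m : Fin 5 → ℤ) (P : Finset (Fin 6)) : Decidable (WT m P) := by unfold WT; infer_instance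

/-- the diagonal `{i, i+2}` with the sign of the ray `i` -/
def omD (i : Fin 5) : Bool → Fin 11
  | true => ![2, 4, 6, 8, 0] i
  | false => ![7, 9, 1, 3, 5] i

/-- the triple `{i, i+1, i+3}` with the sign of the ray `i`, read as the diagonal `{i+1, i+3}` -/
def omT (i : Fin 5) : Bool → Fin 11
  | true => ![4, 6, 8, 0, 2] i
  | false => ![9, 1, 3, 5, 7] i

/-- the oriented letter of a palette at a slot with the positions `m` -/
def om (m : Fin 5 → ℤ) (P : Finset (Fin 6)) : Fin 11 :=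
  if P = {0, 2} then omD 0 (sg (m 0)) else
  if P = {1, 3} then omD 1 (sg (m 1)) else
  if P = {2, 4} then omD 2 (sg (m 2)) else
  if P = {0, 3} then omD 3 (sg (m 3)) else
  if P = {1, 4} then omD 4 (sg (m 4)) else
  if P = {0, 1, 3} then omT 0 (sg (m 0)) else
  if P = {1, 2, 4} then omT 1 (sg (m 1)) else
  if P = {0, 2, 3} then omT 2 (sg (m 2)) else
  if P = {1, 3, 4} then omT 3 (sg (m 3)) else
  if P = {0, 2, 4} then omT 4 (sg (m 4)) else 10

/-- neighbouring oriented letters: the second minus the first is 2 or 3 mod 10 -/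
def Nx (a b : Fin 11) : Prop :=
  a ≠ 10 ∧ b ≠ 10 ∧ ((b.val + 10 - a.val) % 10 = 2 ∨ (b.val + 10 - a.val) % 10 = 3)

instance (a b : Fin 11) : Decidable (Nx a b) := by unfold Nx; infer_instance

/-- the diagonal of an oriented letter -/
def colO : Fin 11 → Finset (Fin 6) :=
  ![{1, 4}, {2, 4}, {0, 2}, {0, 3}, {1, 3}, {1, 4}, {2, 4}, {0, 2}, {0, 3}, {1, 3}, {5}]

/-- the opposite oriented letter -/
def opp : Fin 11 → Fin 11 := ![5, 6, 7, 8, 9, 0, 1, 2, 3, 4, 10]

theorem om_pair (m : Fin 5 → ℤ) (i : Fin 5) :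
    om m {i.castSucc, (i + 2).castSucc} = omD i (sg (m i)) := by
  fin_cases i
  · exact if_pos (by decide)
  · exact (if_neg (by decide)).trans (if_pos (by decide))
  · exact (if_neg (by decide)).trans ((if_neg (by decide)).trans (if_pos (by decide)))
  · exact (if_neg (by decide)).trans ((if_neg (by decide)).trans ((if_neg (by decide)).trans
      (if_pos (by decide))))
  · exact (if_neg (by decide)).trans ((if_neg (by decide)).trans ((if_neg (by decide)).trans
      ((if_neg (by decide)).trans (if_pos (by decide)))))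

theorem om_tri (m : Fin 5 → ℤ) (i : Fin 5) :
    om m {i.castSucc, (i + 1).castSucc, (i + 3).castSucc} = omT i (sg (m i)) := by
  fin_cases i
  · exact (if_neg (by decide)).trans ((if_neg (by decide)).trans ((if_neg (by decide)).trans
      ((if_neg (by decide)).trans ((if_neg (by decide)).trans (if_pos (by decide))))))
  · exact (if_neg (by decide)).trans ((if_neg (by decide)).trans ((if_neg (by decide)).trans
      ((if_neg (by decide)).trans ((if_neg (by decide)).trans ((if_neg (by decide)).trans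
      (if_pos (by decide)))))))
  · exact (if_neg (by decide)).trans ((if_neg (by decide)).trans ((if_neg (by decide)).trans
      ((if_neg (by decide)).trans ((if_neg (by decide)).trans ((if_neg (by decide)).trans
      ((if_neg (by decide)).trans (if_pos (by decide))))))))
  · exact (if_neg (by decide)).trans ((if_neg (by decide)).trans ((if_neg (by decide)).trans
      ((if_neg (by decide)).trans ((if_neg (by decide)).trans ((if_neg (by decide)).trans
      ((if_neg (by decide)).trans ((if_neg (by decide)).trans (if_pos (by decide)))))))))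
  · exact (if_neg (by decide)).trans ((if_neg (by decide)).trans ((if_neg (by decide)).trans
      ((if_neg (by decide)).trans ((if_neg (by decide)).trans ((if_neg (by decide)).trans
      ((if_neg (by decide)).trans ((if_neg (by decide)).trans ((if_neg (by decide)).trans
      (if_pos (by decide))))))))))

/-- an oriented letter is a diagonal or a triple -/
theorem om_ne {m : Fin 5 → ℤ} {P : Finset (Fin 6)} (h : om m P ≠ 10) :
    (∃ i : Fin 5, P = {i.castSucc, (i + 2).castSucc}) ∨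
      ∃ i : Fin 5, P = {i.castSucc, (i + 1).castSucc, (i + 3).castSucc} := by
  unfold om at h
  split_ifs at h with h0 h1 h2 h3 h4 h5 h6 h7 h8 h9
  · exact Or.inl ⟨0, h0.trans (by decide)⟩
  · exact Or.inl ⟨1, h1.trans (by decide)⟩
  · exact Or.inl ⟨2, h2.trans (by decide)⟩
  · exact Or.inl ⟨3, h3.trans (by decide)⟩
  · exact Or.inl ⟨4, h4.trans (by decide)⟩
  · exact Or.inr ⟨0, h5.trans (by decide)⟩
  · exact Or.inr ⟨1, h6.trans (by decide)⟩
  · exact Or.inr ⟨2, h7.trans (by decide)⟩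
  · exact Or.inr ⟨3, h8.trans (by decide)⟩
  · exact Or.inr ⟨4, h9.trans (by decide)⟩
  · exact absurd rfl h

theorem om_fin : ∀ (i : Fin 5) (s : Bool), omD i s ≠ 10 ∧ omT i s ≠ 10 ∧
    opp (omD i s) = omD i (!s) ∧ opp (omT i s) = omT i (!s) ∧
    colO (omD i s) = {i.castSucc, (i + 2).castSucc} ∧
    colO (omT i s) = {(i + 1).castSucc, (i + 3).castSucc} := by decide

/-- the diagonal of the oriented letter is in the palette -/
theorem colO_sub {m : Fin 5 → ℤ} {P : Finset (Fin 6)} (h : om m P ≠ 10) : colO (om m P) ⊆ P := by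
  rcases om_ne h with ⟨i, rfl⟩ | ⟨i, rfl⟩
  · rw [om_pair, (om_fin i _).2.2.2.2.1]
  · rw [om_tri, (om_fin i _).2.2.2.2.2]
    exact Finset.subset_insert _ _

/-! ### Signs and cyclic order -/

theorem sg_t {x : ℤ} (h : sg x = true) : x % 6 < 3 := of_decide_eq_true h

theorem sg_f {x : ℤ} (h : sg x = false) : 3 ≤ x % 6 := not_lt.1 (of_decide_eq_false h)

theorem sg_add_six (x : ℤ) : sg (x + 6) = sg x := by
  unfold sg
  rw [show (x + 6) % 6 = x % 6 by omega]

theorem sg_sub_six (x : ℤ) : sg (x - 6) = sg x := by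
  unfold sg
  rw [show (x - 6) % 6 = x % 6 by omega]

theorem sg_add_three (x : ℤ) : sg (x + 3) = !sg x := by
  cases h : sg x
  · have := sg_f h
    exact decide_eq_true (by omega)
  · have := sg_t h
    exact decide_eq_false (by omega)

/-- order of five rays -/
def O5 (a b c d e : ℤ) : Prop := b ≤ a ∧ c ≤ b ∧ d ≤ c ∧ e ≤ d ∧ a ≤ e + 6

/-- neighbouring slots, before or after -/
def N5 (a b c d e a' b' c' d' e' : ℤ) : Prop :=
  (a ≤ a' ∧ a' ≤ a + 1 ∧ b ≤ b' ∧ b' ≤ b + 1 ∧ c ≤ c' ∧ c' ≤ c + 1 ∧ d ≤ d' ∧ d' ≤ d + 1 ∧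
    e ≤ e' ∧ e' ≤ e + 1) ∨
  (a + 1 ≤ a' ∧ a' ≤ a + 2 ∧ b + 1 ≤ b' ∧ b' ≤ b + 2 ∧ c + 1 ≤ c' ∧ c' ≤ c + 2 ∧
    d + 1 ≤ d' ∧ d' ≤ d + 2 ∧ e + 1 ≤ e' ∧ e' ≤ e + 2)

section core

variable {a b c d e a' b' c' d' e' : ℤ}

/-- a diagonal and the next diagonal -/
theorem coreA (o : O5 a b c d e) (o' : O5 a' b' c' d' e') (h : N5 a b c d e a' b' c' d' e')
    (he : sg e = sg a) (hb : sg b = !sg a) (hc : sg c = !sg a)
    (ha' : sg a' = sg b') (hc' : sg c' = !sg b') (hd' : sg d' = !sg b') : sg b' = sg a := by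
  obtain ⟨o1, o2, o3, o4, o5⟩ := o
  obtain ⟨p1, p2, p3, p4, p5⟩ := o'
  cases h1 : sg a <;> cases h2 : sg b' <;> (try rfl) <;> exfalso <;>
    rw [h1] at he hb hc <;> rw [h2] at ha' hc' hd' <;>
    simp only [Bool.not_true, Bool.not_false] at hb hc hc' hd'
  · have := sg_f h1; have := sg_f he; have := sg_t hb; have := sg_t hc
    have := sg_t h2; have := sg_t ha'; have := sg_f hc'; have := sg_f hd'
    rcases h with h | h <;> omega
  · have := sg_t h1; have := sg_t he; have := sg_f hb; have := sg_f hc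
    have := sg_f h2; have := sg_f ha'; have := sg_t hc'; have := sg_t hd'
    rcases h with h | h <;> omega

/-- a diagonal and the diagonal before -/
theorem coreB (o : O5 a b c d e) (o' : O5 a' b' c' d' e') (h : N5 a b c d e a' b' c' d' e')
    (he : sg e = sg a) (hb : sg b = !sg a) (hc : sg c = !sg a)
    (hd' : sg d' = sg e') (ha' : sg a' = !sg e') (hb' : sg b' = !sg e') : sg e' = !sg a := by
  obtain ⟨o1, o2, o3, o4, o5⟩ := o
  obtain ⟨p1, p2, p3, p4, p5⟩ := o'
  cases h1 : sg a <;> cases h2 : sg e' <;> (try rfl) <;> exfalso <;>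
    rw [h1] at he hb hc <;> rw [h2] at ha' hb' hd' <;>
    simp only [Bool.not_true, Bool.not_false] at hb hc ha' hb'
  · have := sg_f h1; have := sg_f he; have := sg_t hb; have := sg_t hc
    have := sg_f h2; have := sg_t ha'; have := sg_t hb'; have := sg_f hd'
    rcases h with h | h <;> omega
  · have := sg_t h1; have := sg_t he; have := sg_f hb; have := sg_f hc
    have := sg_t h2; have := sg_f ha'; have := sg_f hb'; have := sg_t hd'
    rcases h with h | h <;> omega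

/-- a diagonal and the disjoint triple -/
theorem coreC (o : O5 a b c d e) (o' : O5 a' b' c' d' e') (h : N5 a b c d e a' b' c' d' e')
    (he : sg e = sg a) (hb : sg b = !sg a) (hc : sg c = !sg a)
    (ha' : sg a' = !sg d') (hb' : sg b' = !sg d') : sg d' = !sg a := by
  obtain ⟨o1, o2, o3, o4, o5⟩ := o
  obtain ⟨p1, p2, p3, p4, p5⟩ := o'
  cases h1 : sg a <;> cases h2 : sg d' <;> (try rfl) <;> exfalso <;>
    rw [h1] at he hb hc <;> rw [h2] at ha' hb' <;>
    simp only [Bool.not_true, Bool.not_false] at hb hc ha' hb'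
  · have := sg_f h1; have := sg_f he; have := sg_t hb; have := sg_t hc
    have := sg_f h2; have := sg_t ha'; have := sg_t hb'
    rcases h with h | h <;> omega
  · have := sg_t h1; have := sg_t he; have := sg_f hb; have := sg_f hc
    have := sg_t h2; have := sg_f ha'; have := sg_f hb'
    rcases h with h | h <;> omega

/-- a triple and the disjoint diagonal -/
theorem coreD (o : O5 a b c d e) (o' : O5 a' b' c' d' e') (h : N5 a b c d e a' b' c' d' e')
    (hc : sg c = !sg a) (hd : sg d = !sg a)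
    (hb' : sg b' = sg c') (hd' : sg d' = !sg c') (he' : sg e' = !sg c') : sg c' = sg a := by
  obtain ⟨o1, o2, o3, o4, o5⟩ := o
  obtain ⟨p1, p2, p3, p4, p5⟩ := o'
  cases h1 : sg a <;> cases h2 : sg c' <;> (try rfl) <;> exfalso <;>
    rw [h1] at hc hd <;> rw [h2] at hb' hd' he' <;>
    simp only [Bool.not_true, Bool.not_false] at hc hd hd' he'
  · have := sg_f h1; have := sg_t hc; have := sg_t hd
    have := sg_t h2; have := sg_t hb'; have := sg_f hd'; have := sg_f he'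
    rcases h with h | h <;> omega
  · have := sg_t h1; have := sg_f hc; have := sg_f hd
    have := sg_f h2; have := sg_f hb'; have := sg_t hd'; have := sg_t he'
    rcases h with h | h <;> omega

end core

/-- positions `m` at a slot and `n` at the next slot -/
def Nr (m n : Fin 5 → ℤ) : Prop :=
  (∀ i, m i ≤ n i ∧ n i ≤ m i + 1) ∨ ∀ i, m i + 1 ≤ n i ∧ n i ≤ m i + 2

/-- the five rays in cyclic order from the ray `i` -/
theorem rot5 {m n : Fin 5 → ℤ} (hm : Ord m) (hn : Ord n) (h : Nr m n) (i : Fin 5) :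
    ∃ a b c d e a' b' c' d' e' : ℤ, O5 a b c d e ∧ O5 a' b' c' d' e' ∧
      N5 a b c d e a' b' c' d' e' ∧
      (sg a = sg (m i) ∧ sg b = sg (m (i + 1)) ∧ sg c = sg (m (i + 2)) ∧ sg d = sg (m (i + 3)) ∧
        sg e = sg (m (i + 4))) ∧
      (sg a' = sg (n i) ∧ sg b' = sg (n (i + 1)) ∧ sg c' = sg (n (i + 2)) ∧
        sg d' = sg (n (i + 3)) ∧ sg e' = sg (n (i + 4))) := by
  have hN : (m 0 ≤ n 0 ∧ n 0 ≤ m 0 + 1 ∧ m 1 ≤ n 1 ∧ n 1 ≤ m 1 + 1 ∧ m 2 ≤ n 2 ∧ n 2 ≤ m 2 + 1 ∧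
      m 3 ≤ n 3 ∧ n 3 ≤ m 3 + 1 ∧ m 4 ≤ n 4 ∧ n 4 ≤ m 4 + 1) ∨
      (m 0 + 1 ≤ n 0 ∧ n 0 ≤ m 0 + 2 ∧ m 1 + 1 ≤ n 1 ∧ n 1 ≤ m 1 + 2 ∧ m 2 + 1 ≤ n 2 ∧
      n 2 ≤ m 2 + 2 ∧ m 3 + 1 ≤ n 3 ∧ n 3 ≤ m 3 + 2 ∧ m 4 + 1 ≤ n 4 ∧ n 4 ≤ m 4 + 2) := by
    rcases h with h | h
    · exact Or.inl ⟨(h 0).1, (h 0).2, (h 1).1, (h 1).2, (h 2).1, (h 2).2, (h 3).1, (h 3).2,
        (h 4).1, (h 4).2⟩
    · exact Or.inr ⟨(h 0).1, (h 0).2, (h 1).1, (h 1).2, (h 2).1, (h 2).2, (h 3).1, (h 3).2,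
        (h 4).1, (h 4).2⟩
  obtain ⟨o1, o2, o3, o4, o5⟩ := hm
  obtain ⟨p1, p2, p3, p4, p5⟩ := hn
  fin_cases i
  · refine ⟨m 0, m 1, m 2, m 3, m 4, n 0, n 1, n 2, n 3, n 4, ?_, ?_, ?_,
      ⟨rfl, rfl, rfl, rfl, rfl⟩, rfl, rfl, rfl, rfl, rfl⟩
    · unfold O5; omega
    · unfold O5; omega
    · unfold N5; omega
  · refine ⟨m 1, m 2, m 3, m 4, m 0 - 6, n 1, n 2, n 3, n 4, n 0 - 6, ?_, ?_, ?_,
      ⟨rfl, rfl, rfl, rfl, sg_sub_six _⟩, rfl, rfl, rfl, rfl, sg_sub_six _⟩
    · unfold O5; omega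
    · unfold O5; omega
    · unfold N5; omega
  · refine ⟨m 2, m 3, m 4, m 0 - 6, m 1 - 6, n 2, n 3, n 4, n 0 - 6, n 1 - 6, ?_, ?_, ?_,
      ⟨rfl, rfl, rfl, sg_sub_six _, sg_sub_six _⟩, rfl, rfl, rfl, sg_sub_six _, sg_sub_six _⟩
    · unfold O5; omega
    · unfold O5; omega
    · unfold N5; omega
  · refine ⟨m 3, m 4, m 0 - 6, m 1 - 6, m 2 - 6, n 3, n 4, n 0 - 6, n 1 - 6, n 2 - 6, ?_, ?_, ?_,
      ⟨rfl, rfl, sg_sub_six _, sg_sub_six _, sg_sub_six _⟩, rfl, rfl, sg_sub_six _,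
      sg_sub_six _, sg_sub_six _⟩
    · unfold O5; omega
    · unfold O5; omega
    · unfold N5; omega
  · refine ⟨m 4, m 0 - 6, m 1 - 6, m 2 - 6, m 3 - 6, n 4, n 0 - 6, n 1 - 6, n 2 - 6, n 3 - 6,
      ?_, ?_, ?_, ⟨rfl, sg_sub_six _, sg_sub_six _, sg_sub_six _, sg_sub_six _⟩, rfl,
      sg_sub_six _, sg_sub_six _, sg_sub_six _, sg_sub_six _⟩
    · unfold O5; omega
    · unfold O5; omega
    · unfold N5; omega

/-- disjoint diagonals and triples -/
theorem disj_fin : ∀ i i' : Fin 5,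
    (Disjoint ({i.castSucc, (i + 2).castSucc} : Finset (Fin 6))
      {i'.castSucc, (i' + 2).castSucc} → i' = i + 1 ∨ i' = i + 4) ∧
    (Disjoint ({i.castSucc, (i + 2).castSucc} : Finset (Fin 6))
      {i'.castSucc, (i' + 1).castSucc, (i' + 3).castSucc} → i' = i + 3) ∧
    (Disjoint ({i.castSucc, (i + 1).castSucc, (i + 3).castSucc} : Finset (Fin 6))
      {i'.castSucc, (i' + 2).castSucc} → i' = i + 2) ∧
    ¬ Disjoint ({i.castSucc, (i + 1).castSucc, (i + 3).castSucc} : Finset (Fin 6))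
      {i'.castSucc, (i' + 1).castSucc, (i' + 3).castSucc} := by decide +kernel

theorem nx_fin : ∀ (i : Fin 5) (s : Bool), Nx (omD i s) (omD (i + 1) s) ∧
    Nx (omD i s) (omD (i + 4) (!s)) ∧ Nx (omD i s) (omT (i + 3) (!s)) ∧
    Nx (omT i s) (omD (i + 2) s) := by decide

theorem i5 : ∀ i : Fin 5, i + 1 + 4 = i ∧ i + 1 + 1 = i + 2 ∧ i + 1 + 2 = i + 3 ∧
    i + 4 + 4 = i + 3 ∧ i + 4 + 1 = i ∧ i + 4 + 2 = i + 1 ∧ i + 3 + 2 = i ∧ i + 3 + 3 = i + 1 ∧
    i + 2 + 4 = i + 1 ∧ i + 2 + 1 = i + 3 ∧ i + 2 + 2 = i + 4 := by decide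

/-- **The difference rule**: disjoint palettes at neighbouring slots have oriented letters with
difference 2 or 3 mod 10, also if one slot is taken before and the other after a crossing. -/
theorem om_step {m n : Fin 5 → ℤ} (hm : Ord m) (hn : Ord n) (h : Nr m n) {P P' : Finset (Fin 6)}
    (hd : Disjoint P P') (w : WL m P) (t : WT m P) (w' : WL n P') (t' : WT n P')
    (hP : om m P ≠ 10) (hP' : om n P' ≠ 10) : Nx (om m P) (om n P') := by
  rcases om_ne hP with ⟨i, rfl⟩ | ⟨i, rfl⟩ <;> rcases om_ne hP' with ⟨i', rfl⟩ | ⟨i', rfl⟩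
  · obtain ⟨a, b, c, d, e, a', b', c', d', e', o, o', hN, ⟨e1, e2, e3, e4, e5⟩,
      f1, f2, f3, f4, f5⟩ := rot5 hm hn h i
    obtain ⟨w1, w2, w3⟩ := w i rfl
    obtain ⟨v1, v2, v3⟩ := w' i' rfl
    rw [om_pair, om_pair]
    rcases (disj_fin i i').1 hd with rfl | rfl
    · have h1 : sg b' = sg a := by
        refine coreA o o' hN (by rw [e5, e1, w1]) (by rw [e2, e1, w2]) (by rw [e3, e1, w3]) ?_ ?_ ?_
        · rw [f1, f2, ← v1, (i5 i).1]
        · rw [f3, f2, ← v2, (i5 i).2.1]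
        · rw [f4, f2, ← v3, (i5 i).2.2.1]
      rw [← f2, h1, e1]
      exact (nx_fin i _).1
    · have h1 : sg e' = !sg a := by
        refine coreB o o' hN (by rw [e5, e1, w1]) (by rw [e2, e1, w2]) (by rw [e3, e1, w3]) ?_ ?_ ?_
        · rw [f4, f5, ← v1, (i5 i).2.2.2.1]
        · rw [f1, f5, ← v2, (i5 i).2.2.2.2.1]
        · rw [f2, f5, ← v3, (i5 i).2.2.2.2.2.1]
      rw [← f5, h1, e1]
      exact (nx_fin i _).2.1
  · obtain ⟨a, b, c, d, e, a', b', c', d', e', o, o', hN, ⟨e1, e2, e3, e4, e5⟩,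
      f1, f2, f3, f4, f5⟩ := rot5 hm hn h i
    obtain ⟨w1, w2, w3⟩ := w i rfl
    obtain ⟨v1, v2⟩ := t' i' rfl
    rw [om_pair, om_tri]
    obtain rfl := (disj_fin i i').2.1 hd
    have h1 : sg d' = !sg a := by
      refine coreC o o' hN (by rw [e5, e1, w1]) (by rw [e2, e1, w2]) (by rw [e3, e1, w3]) ?_ ?_
      · rw [f1, f4, ← v1, (i5 i).2.2.2.2.2.2.1]
      · rw [f2, f4, ← v2, (i5 i).2.2.2.2.2.2.2.1]
    rw [← f4, h1, e1]
    exact (nx_fin i _).2.2.1
  · obtain ⟨a, b, c, d, e, a', b', c', d', e', o, o', hN, ⟨e1, e2, e3, e4, e5⟩,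
      f1, f2, f3, f4, f5⟩ := rot5 hm hn h i
    obtain ⟨w1, w2⟩ := t i rfl
    obtain ⟨v1, v2, v3⟩ := w' i' rfl
    rw [om_tri, om_pair]
    obtain rfl := (disj_fin i i').2.2.1 hd
    have h1 : sg c' = sg a := by
      refine coreD o o' hN (by rw [e3, e1, w1]) (by rw [e4, e1, w2]) ?_ ?_ ?_
      · rw [f2, f3, ← v1, (i5 i).2.2.2.2.2.2.2.2.1]
      · rw [f4, f3, ← v2, (i5 i).2.2.2.2.2.2.2.2.2.1]
      · rw [f5, f3, ← v3, (i5 i).2.2.2.2.2.2.2.2.2.2]
    rw [← f3, h1, e1]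
    exact (nx_fin i _).2.2.2
  · exact absurd hd (disj_fin i i').2.2.2

/-! ### Shifts -/

theorem om_congr {m n : Fin 5 → ℤ} (h : ∀ i, sg (m i) = sg (n i)) (P : Finset (Fin 6)) :
    om m P = om n P := by
  unfold om
  rw [h 0, h 1, h 2, h 3, h 4]

theorem om_six (m : Fin 5 → ℤ) (P : Finset (Fin 6)) : om (fun i => m i + 6) P = om m P :=
  om_congr (fun i => sg_add_six (m i)) P

/-- half a turn -/
theorem om_three {m n : Fin 5 → ℤ} (h : ∀ i, n i = m i + 3) {P : Finset (Fin 6)} :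
    om n P = opp (om m P) := by
  have hs : ∀ i, sg (n i) = !sg (m i) := fun i => by rw [h i, sg_add_three]
  by_cases h1 : om m P = 10
  · rw [h1, show opp 10 = 10 from rfl]
    by_contra h2
    rcases om_ne h2 with ⟨i, rfl⟩ | ⟨i, rfl⟩
    · rw [om_pair] at h1; exact (om_fin i _).1 h1
    · rw [om_tri] at h1; exact (om_fin i _).2.1 h1
  · rcases om_ne h1 with ⟨i, rfl⟩ | ⟨i, rfl⟩
    · rw [om_pair, om_pair, hs i, (om_fin i _).2.2.1]
    · rw [om_tri, om_tri, hs i, (om_fin i _).2.2.2.1]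

theorem wl_congr {m n : Fin 5 → ℤ} (h : ∀ i, sg (m i) = sg (n i)) {P : Finset (Fin 6)}
    (w : WL m P) : WL n P := by
  intro i hi
  rw [← h, ← h, ← h, ← h]
  exact w i hi

theorem wt_congr {m n : Fin 5 → ℤ} (h : ∀ i, sg (m i) = sg (n i)) {P : Finset (Fin 6)}
    (w : WT m P) : WT n P := by
  intro i hi
  rw [← h, ← h, ← h]
  exact w i hi

/-! ### Columns -/

section column

variable {κ Λ : Type} {K : κ → Λ → Finset (Fin 6)} {k0 : κ}

/-- the window rules of the triples of a column -/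
def WTc (K : κ → Λ → Finset (Fin 6)) (k0 : κ) (M : Fin 5 → ℤ) (g : κ × Fin 6 → Λ) : Prop :=
  ∀ j : Fin 6, WT (fun i => M i + (j.val : ℤ)) (K k0 (g (k0, j)))

instance (K : κ → Λ → Finset (Fin 6)) (k0 : κ) (M : Fin 5 → ℤ) (g : κ × Fin 6 → Λ) :
    Decidable (WTc K k0 M g) := by unfold WTc; infer_instance

/-- the oriented letters of the circle of the 5-centre in a column -/
def omc (K : κ → Λ → Finset (Fin 6)) (k0 : κ) (M : Fin 5 → ℤ) (g : κ × Fin 6 → Λ) (j : Fin 6) :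
    Fin 11 := om (fun i => M i + (j.val : ℤ)) (K k0 (g (k0, j)))

theorem six_cast (j : Fin 6) : (j.val : ℤ) + 1 = ((j + 1).val : ℤ) ∨
    (j.val : ℤ) + 1 = ((j + 1).val : ℤ) + 6 := by
  revert j; decide

theorem sg_next (x : ℤ) (j : Fin 6) : sg (x + (((j + 1 : Fin 6).val : ℤ))) =
    sg (x + ((j.val : ℤ) + 1)) := by
  rcases six_cast j with h | h
  · rw [h]
  · rw [h, ← add_assoc, sg_add_six]

/-- a turn shifts the oriented letters -/
theorem omc_shift (M : Fin 5 → ℤ) (g : κ × Fin 6 → Λ) (j : Fin 6) :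
    omc K k0 (fun i => M i + 1) (g ∘ rt κ) j = omc K k0 M g (j + 1) := by
  unfold omc
  refine om_congr (fun i => ?_) _
  rw [sg_next]
  congr 1; ring

/-- **The difference rule in columns**: slot `j` from a column with positions `M`, slot `j + 1`
from a column with positions `M'`, where `M`, `M'` are the same or before and after a crossing (in
any order). -/
theorem omc_step {M M' : Fin 5 → ℤ} (oM : Ord M) (oM' : Ord M') (hc : Crs M M' ∨ Crs M' M)
    {g g' : κ × Fin 6 → Λ} (w : WLc K k0 M g) (t : WTc K k0 M g) (w' : WLc K k0 M' g')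
    (t' : WTc K k0 M' g') (j : Fin 6)
    (hd : Disjoint (K k0 (g (k0, j))) (K k0 (g' (k0, j + 1))))
    (h : omc K k0 M g j ≠ 10) (h' : omc K k0 M' g' (j + 1) ≠ 10) :
    Nx (omc K k0 M g j) (omc K k0 M' g' (j + 1)) := by
  have e : ∀ i, sg (M' i + ((j + 1 : Fin 6).val : ℤ)) = sg (M' i + ((j.val : ℤ) + 1)) :=
    fun i => sg_next _ j
  have e' : omc K k0 M' g' (j + 1) = om (fun i => M' i + ((j.val : ℤ) + 1))
      (K k0 (g' (k0, j + 1))) := om_congr e _
  rw [e'] at h' ⊢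
  refine om_step (oM.add _) (oM'.add _) ?_ hd (w j) (t j) (wl_congr e (w' (j + 1)))
    (wt_congr e (t' (j + 1))) h h'
  rcases hc with hc | hc
  · refine Or.inr fun i => ?_
    have := hc i
    dsimp only
    omega
  · refine Or.inl fun i => ?_
    have := hc i
    dsimp only
    omega

end column

end Vale.Agent.P032.H852
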