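import Vale.Agent.P032.H852.Ocol
import Vale.Agent.P032.H326.Orient
import Vale.Agent.P032.H326.Trip

/-!
# P032: the circle of a 5-centre with rays in positive order satisfies the rules for oriented columns
-/

open Set Filter Topology Metric

noncomputable section

namespace Vale.Agent.P032.H852

open Vale.Agent.P032.Six Vale.Agent.P032.Sweep Vale.Agent.P032.S5.H767 Vale.Agent.P032.S5.H122
  Vale.Agent.P032.H187 Vale.Agent.P032.H93 Vale.Agent.P032.H326 Vale.Agent.P032.H532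

variable {κ Λ : Type} {U : Fin 6 → Set ℂ} {T : ℂ → Set (Fin 6)} {N : Fin 6 → Fin 6} {zz : κ → ℂ}
  {K : κ → Λ → Finset (Fin 6)} {lt : κ → Set (Fin 6) → Λ} {k0 : κ} {ρ : Fin 5 → ℝ}

/-- **a circle of a 5-centre with its rays in positive order** -/
theorem orC_of (F : RayC T zz N K lt k0 ρ) (h : Irr U T)
    (hmin : ∀ z, 4 ≤ (T z).ncard → ∀ s, s ⊆ T z → s ≠ T z →
      ¬ ∀ᶠ w in 𝓝 z, ∃ i ∈ s, w ∈ U i ∨ (w ∈ XX U ∧ i ∈ Pal U w)) (ho : Ord5 ρ) (φ : ℝ) :
    OrC T zz N K lt k0 ρ φ where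
  ray := F
  ordL := fun u => wo_ML ho φ u
  ordR := fun u => wo_MR ho φ u
  wtL := fun _ _ hg => F.wt_LC h hmin hg
  wtR := fun _ _ hg => F.wt_RC h hmin hg

end Vale.Agent.P032.H852
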