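import Vale.Agent.P032.H326.Col5
import Vale.Agent.P032.H437.Fr

/-!
# P032: the end of the row of the Pen centres: the class of the slots of the free colour

At a centre `z` with five colours and the five exact diagonals, and a generic base direction, the
set `S` of the slots `k` with the free colour `f` in the palette is not empty and has no two
neighbours (helper145): it is `{k}`, `{k,k+2}`, `{k,k+3}` or `{k,k+2,k+4}`.
`cl5 S` : the class: `0, 1, 2` for subsets of a diameter, `3, 4` for the other ones by parity.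
`cl5_turn` : the class changes when the frame is turned by one slot.
`pen_end`  : hence the class is not locally constant: at some base direction `u` there are a germ
before and a germ after `u` with different classes.
-/

open Set Filter Topology Metric

noncomputable section

namespace Vale.Agent.P032.H852

open Vale.Agent.P032.Six Vale.Agent.P032.Sweep Vale.Agent.P032.S5.H767 Vale.Agent.P032.S5.H122
  Vale.Agent.P032.H93 Vale.Agent.P032.H326 Vale.Agent.P032.H437

/-! ### The class -/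

/-- the class of a set of slots -/
def cl5 (S : Finset (Fin 6)) : Fin 5 :=
  if S ⊆ {0, 3} then 0 else if S ⊆ {1, 4} then 1 else if S ⊆ {2, 5} then 2 else
    if S ⊆ {0, 2, 4} then 3 else 4

/-- not empty, no two neighbours -/
def Leg5 (S : Finset (Fin 6)) : Prop := S.Nonempty ∧ ∀ k ∈ S, k + 1 ∉ S

instance (S : Finset (Fin 6)) : Decidable (Leg5 S) := by unfold Leg5; infer_instance

/-- the set of slots in the frame turned by one slot -/
def trn (S : Finset (Fin 6)) : Finset (Fin 6) := Finset.univ.filter fun k => k + 1 ∈ S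

/-- **the class changes with the turn by one slot** -/
theorem cl5_turn : ∀ S : Finset (Fin 6), Leg5 S → cl5 (trn S) ≠ cl5 S := by decide +kernel

/-- six diagonals can not be a column -/
theorem no_six : ∀ a : Fin 5, ∀ b : Fin 5, Disjoint (K6 a.castSucc) (K6 b.castSucc) →
    ∀ c : Fin 5, Disjoint (K6 b.castSucc) (K6 c.castSucc) →
    ∀ d : Fin 5, Disjoint (K6 c.castSucc) (K6 d.castSucc) →
    2 ≤ (({0, 1, 2, 3, 4} : Finset (Fin 6)) \ (K6 a.castSucc ∪ K6 d.castSucc)).card →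
    ∀ e : Fin 5, Disjoint (K6 d.castSucc) (K6 e.castSucc) →
    2 ≤ (({0, 1, 2, 3, 4} : Finset (Fin 6)) \ (K6 b.castSucc ∪ K6 e.castSucc)).card →
    ∀ g : Fin 5, Disjoint (K6 e.castSucc) (K6 g.castSucc) →
    2 ≤ (({0, 1, 2, 3, 4} : Finset (Fin 6)) \ (K6 c.castSucc ∪ K6 g.castSucc)).card →
    ¬ Disjoint (K6 g.castSucc) (K6 a.castSucc) := by decide +kernel

/-- a legal column has the letter `5` -/
theorem leg6_five {g : Fin 6 → Fin 6} (hg : Leg6 g) : ∃ j, g j = 5 := by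
  by_contra hcon
  push Not at hcon
  have key : ∀ j, ∃ a : Fin 5, g j = a.castSucc := by
    intro j
    have : ∀ x : Fin 6, x ≠ 5 → ∃ a : Fin 5, x = a.castSucc := by decide
    exact this _ (hcon j)
  choose a ha using key
  have h1 : ∀ j, Disjoint (K6 (a j).castSucc) (K6 (a (j + 1)).castSucc) := fun j => by
    rw [← ha, ← ha]; exact hg.1 j
  have h2 : ∀ j, 2 ≤ (({0, 1, 2, 3, 4} : Finset (Fin 6)) \
      (K6 (a j).castSucc ∪ K6 (a (j + 3)).castSucc)).card := fun j => by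
    rw [← ha, ← ha]; exact hg.2 j
  exact no_six (a 0) (a 1) (h1 0) (a 2) (h1 1) (a 3) (h1 2) (h2 0) (a 4) (h1 3) (h2 1) (a 5)
    (h1 4) (h2 2) (h1 5)

/-! ### Generic base directions -/

variable {U : Fin 6 → Set ℂ} {T : ℂ → Set (Fin 6)} {z : ℂ} {N : Fin 6 → Fin 6} {f : Fin 6}

/-- the base directions with constant palettes at the six slots -/
def G6 (T : ℂ → Set (Fin 6)) (z : ℂ) : Set ℝ := {v | ∀ k : Fin 6, v + (k.val : ℝ) ∈ Lc T z}

open Classical in
/-- the slots with the colour `f` at the base direction `v` -/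
def hs (T : ℂ → Set (Fin 6)) (z : ℂ) (f : Fin 6) (v : ℝ) : Finset (Fin 6) :=
  Finset.univ.filter fun k => f ∈ T (pt z (v + (k.val : ℝ)))

open Classical in
/-- the slots with the colour `f` in the limit palette -/
def hub (T : ℂ → Set (Fin 6)) (z : ℂ) (f : Fin 6) (F : Ultrafilter ℝ) : Finset (Fin 6) :=
  Finset.univ.filter fun k => f ∈ lt F T z (k.val : ℝ)

theorem mem_hs {v : ℝ} {k : Fin 6} : k ∈ hs T z f v ↔ f ∈ T (pt z (v + (k.val : ℝ))) := by
  unfold hs; simp

theorem mem_hub {F : Ultrafilter ℝ} {k : Fin 6} : k ∈ hub T z f F ↔ f ∈ lt F T z (k.val : ℝ) := by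
  unfold hub; simp

theorem G6_open : IsOpen (G6 T z) := by
  have e : G6 T z = ⋂ k : Fin 6, {v : ℝ | v + (k.val : ℝ) ∈ Lc T z} := by
    ext v; simp [G6]
  rw [e]
  exact isOpen_iInter_of_finite fun k => (Lc_open z).preimage (by fun_prop)

theorem G6_gen (h : Irr U T) : G6 T z ∈ gen := by
  have e : G6 T z = ⋂ k : Fin 6, {v : ℝ | v + (k.val : ℝ) ∈ Lc T z} := by
    ext v; simp [G6]
  rw [e, Filter.iInter_mem]
  intro k
  refine mem_gen ((Lc_open z).preimage (by fun_prop)) ?_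
  refine (preimage_dense (φ := (k.val : ℝ)) (Lc_dense h z) 0).mono fun v hv => ?_
  have hv : (k.val : ℝ) + v + 0 ∈ Lc T z := hv
  show v + (k.val : ℝ) ∈ Lc T z
  rwa [add_zero, add_comm] at hv

theorem G6_dense (h : Irr U T) : Dense (G6 T z) := by
  obtain ⟨O, h1, -, h3⟩ := G6_gen (z := z) h
  exact h3.mono h1

/-- the slot points are constant near a generic base direction -/
theorem hs_near {v : ℝ} (hv : v ∈ G6 T z) : ∀ᶠ v' in 𝓝 v, v' ∈ G6 T z ∧ hs T z f v' = hs T z f v := by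
  have h1 : ∀ k : Fin 6, ∀ᶠ v' in 𝓝 v, T (pt z (v' + (k.val : ℝ))) = T (pt z (v + (k.val : ℝ))) := by
    intro k
    have h2 : ∀ᶠ w in 𝓝 (v + (k.val : ℝ)), T (pt z w) = T (pt z (v + (k.val : ℝ))) := hv k
    have hc : Continuous fun v' : ℝ => v' + (k.val : ℝ) := by fun_prop
    exact (hc.tendsto v).eventually h2
  filter_upwards [G6_open.mem_nhds hv, eventually_all.2 h1] with v' h2 h3
  refine ⟨h2, ?_⟩
  ext k
  rw [mem_hs, mem_hs, h3 k]

/-- the column of a generic base direction -/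
theorem leg_hs (h : Irr U T)
    (hmin : ∀ z, 4 ≤ (T z).ncard → ∀ s, s ⊆ T z → s ≠ T z →
      ¬ ∀ᶠ w in 𝓝 z, ∃ i ∈ s, w ∈ U i ∨ (w ∈ XX U ∧ i ∈ Pal U w))
    (hN : Function.Injective N) (P : P5 T z fun i : Fin 5 => N i.castSucc) (hf : N 5 ∉ T z)
    {v : ℝ} (hv : v ∈ G6 T z) : Leg5 (hs T z (N 5) v) := by
  have hz : z ∈ XX U := xx_of_four h (by rw [P.card]; norm_num)
  have h60 : ∀ j : Fin 6, Disjoint (T (pt z (v + (j.val : ℝ))))
      (T (pt z (v + ((j + 1 : Fin 6).val : ℝ)))) := by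
    intro j
    have h1 := pt_succ z 0 v j
    rw [zero_add] at h1
    rw [h1]
    exact dj_sixty h (hv j)
  refine ⟨?_, fun k hk hk' => ?_⟩
  · by_contra hcon
    rw [Finset.not_nonempty_iff_eq_empty] at hcon
    have h5 : ∀ j : Fin 6, N 5 ∉ T (pt z (v + (j.val : ℝ))) := by
      intro j hj
      have h6 : j ∈ hs T z (N 5) v := mem_hs.2 hj
      rw [hcon] at h6
      simp at h6
    have hl : ∀ j : Fin 6, ∃ l, T (pt z (v + (j.val : ℝ))) = N '' (K5 l : Set (Fin 6)) :=
      fun j => pal5 h hmin hN P (hv j) (h5 j)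
    choose l hl using hl
    have hne : ∀ j, l j ≠ 5 := by
      intro j hj
      refine h5 j ?_
      rw [hl j, hj]
      exact ⟨5, by decide, rfl⟩
    have d1 : ∀ j, Disjoint (K5 (l j)) (K5 (l (j + 1))) := by
      intro j
      have h6 := h60 j
      rw [hl j, hl (j + 1)] at h6
      exact (image_disj hN).1 h6
    have hall : v ∈ Lall T (fun _ : Unit => z) 0 := by
      rintro ⟨-, j⟩
      show 0 + v + (j.val : ℝ) ∈ Lc T z
      rw [zero_add]
      exact hv j
    have d2 : ∀ j, 2 ≤ (({0, 1, 2, 3, 4} : Finset (Fin 6)) \ (K5 (l j) ∪ K5 (l (j + 3)))).card := by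
      intro j
      have h6 := anti_two h hz (hv j) (by
        have := Lc_add3 hall () j
        rwa [zero_add] at this)
      have h7 := pt_add3 z 0 v j
      rw [zero_add] at h7
      rw [← h7, hl j, hl (j + 3), ← Set.image_union, ← Finset.coe_union] at h6
      have hTz : T z = N '' (({0, 1, 2, 3, 4} : Finset (Fin 6)) : Set (Fin 6)) := by
        have h8 := (circ5 h hmin hN P hf).ctr
        rw [h8, image_nm hN]
      rw [hTz, ← Set.image_sdiff hN, ← Finset.coe_sdiff, Set.ncard_image_of_injective _ hN,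
        Set.ncard_coe_finset] at h6
      exact h6
    have hleg : Leg6 fun j => dg (l j) := by
      refine ⟨fun j => ?_, fun j => ?_⟩
      · exact Finset.disjoint_of_subset_left (K6_dg _) (Finset.disjoint_of_subset_right (K6_dg _)
          (d1 j))
      · exact (d2 j).trans (Finset.card_le_card (Finset.sdiff_subset_sdiff
          (Finset.Subset.refl _) (Finset.union_subset_union (K6_dg _) (K6_dg _))))
    obtain ⟨j, hj⟩ := leg6_five hleg
    have hd : ∀ x : Fin 16, dg x = 5 → x = 5 := by decide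
    exact hne j (hd _ hj)
  · exact Set.disjoint_left.1 (h60 k) (mem_hs.1 hk) (mem_hs.1 hk')

/-- the slots turn with the frame -/
theorem hs_add (v : ℝ) : hs T z f (v + 1) = trn (hs T z f v) := by
  ext k
  have h1 := pt_succ z 0 v k
  rw [zero_add] at h1
  unfold trn
  rw [mem_hs, Finset.mem_filter, mem_hs, h1, show v + 1 + (k.val : ℝ) = v + (k.val : ℝ) + 1 by ring]
  simp

theorem G6_add {v : ℝ} (hv : v ∈ G6 T z) : v + 1 ∈ G6 T z := by
  intro k
  by_cases hk : k = 5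
  · subst hk
    have h1 : v + (((0 : Fin 6)).val : ℝ) + 6 ∈ Lc T z := (Lc_per z _).2 (hv 0)
    have e : v + 1 + (((5 : Fin 6)).val : ℝ) = v + (((0 : Fin 6)).val : ℝ) + 6 := by
      have e1 : (((5 : Fin 6)).val : ℝ) = 5 := by norm_num
      have e2 : (((0 : Fin 6)).val : ℝ) = 0 := by norm_num
      rw [e1, e2]; ring
    rw [e]; exact h1
  · have h1 := hv (k + 1)
    have e : ((k + 1 : Fin 6).val : ℝ) = (k.val : ℝ) + 1 := by
      have : ∀ k : Fin 6, k ≠ 5 → (k + 1 : Fin 6).val = k.val + 1 := by decide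
      rw [this k hk]; push_cast; ring
    rw [e] at h1
    rwa [show v + 1 + (k.val : ℝ) = v + ((k.val : ℝ) + 1) by ring]

/-- the slots of the free colour along an ultrafilter -/
theorem hub_spec (T : ℂ → Set (Fin 6)) (z : ℂ) (f : Fin 6) (F : Ultrafilter ℝ) :
    ∀ᶠ v in (F : Filter ℝ), hs T z f v = hub T z f F := by
  have h1 : ∀ k : Fin 6, ∀ᶠ v in (F : Filter ℝ),
      T (pt z (v + (k.val : ℝ))) = lt F T z (k.val : ℝ) := fun k => lt_spec F T z _
  filter_upwards [eventually_all.2 h1] with v hv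
  ext k
  rw [mem_hs, mem_hub, hv k]

/-- the set of slots of the free colour of a germ is not empty and has no neighbours -/
theorem leg_hub (h : Irr U T)
    (hmin : ∀ z, 4 ≤ (T z).ncard → ∀ s, s ⊆ T z → s ≠ T z →
      ¬ ∀ᶠ w in 𝓝 z, ∃ i ∈ s, w ∈ U i ∨ (w ∈ XX U ∧ i ∈ Pal U w))
    (hN : Function.Injective N) (P : P5 T z fun i : Fin 5 => N i.castSucc) (hf : N 5 ∉ T z)
    {u : ℝ} {F : Bool → Ultrafilter ℝ} (hF : Fr U T u F) (σ : Bool) :
    Leg5 (hub T z (N 5) (F σ)) := by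
  have h1 : ∀ᶠ v in (F σ : Filter ℝ), v ∈ G6 T z := by
    have h2 : ∀ k : Fin 6, ∀ᶠ v in (F σ : Filter ℝ), v + (k.val : ℝ) ∈ Lc T z :=
      fun k => hF.lc σ z _
    filter_upwards [eventually_all.2 h2] with v hv using hv
  obtain ⟨v, h2, h3⟩ := (h1.and (hub_spec T z (N 5) (F σ))).exists
  rw [← h3]
  exact leg_hs h hmin hN P hf h2

/-! ### The end -/

/-- the class at a base direction -/
def clv (T : ℂ → Set (Fin 6)) (z : ℂ) (f : Fin 6) (v : ℝ) : Fin 5 := cl5 (hs T z f v)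

theorem germ_of (h : Irr U T) {u : ℝ} {c c' : Fin 5}
    (h1 : ∃ᶠ v in 𝓝[<] u, v ∈ G6 T z ∧ clv T z f v = c)
    (h2 : ∃ᶠ v in 𝓝[>] u, v ∈ G6 T z ∧ clv T z f v = c') :
    ∃ F : Bool → Ultrafilter ℝ, Fr U T u F ∧ cl5 (hub T z f (F false)) = c ∧
      cl5 (hub T z f (F true)) = c' := by
  have key : ∀ (c : Fin 5) (v : ℝ), (v ∈ G6 T z ∧ clv T z f v = c) →
      ∀ᶠ v' in 𝓝 v, v' ∈ {v | v ∈ G6 T z ∧ clv T z f v = c} := by
    rintro c v ⟨h3, h4⟩
    filter_upwards [hs_near (f := f) h3] with v' h5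
    refine ⟨h5.1, ?_⟩
    unfold clv at h4 ⊢
    rw [h5.2, h4]
  obtain ⟨F, hF, h3, h4⟩ := exists_fr_of (u := u) h (h1.mono (key c)) (h2.mono (key c'))
  refine ⟨F, hF, ?_, ?_⟩
  · have h3 : ∀ᶠ v in (F false : Filter ℝ), v ∈ G6 T z ∧ clv T z f v = c := h3
    obtain ⟨v, ⟨-, h5⟩, h6⟩ := (h3.and (hub_spec T z f (F false))).exists
    rw [← h6]; exact h5
  · have h4 : ∀ᶠ v in (F true : Filter ℝ), v ∈ G6 T z ∧ clv T z f v = c' := h4
    obtain ⟨v, ⟨-, h5⟩, h6⟩ := (h4.and (hub_spec T z f (F true))).exists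
    rw [← h6]; exact h5

theorem freq_left (h : Irr U T) (u : ℝ) : ∃ᶠ v in 𝓝[<] u, v ∈ G6 T z := by
  rw [frequently_iff]
  intro S hS
  obtain ⟨a, ha, haS⟩ := mem_nhdsLT_iff_exists_Ioo_subset.1 hS
  obtain ⟨v, h1, h2⟩ := (G6_dense (z := z) h).inter_open_nonempty (Ioo a u) isOpen_Ioo
    (nonempty_Ioo.2 ha)
  exact ⟨v, haS h1, h2⟩

theorem freq_right (h : Irr U T) (u : ℝ) : ∃ᶠ v in 𝓝[>] u, v ∈ G6 T z := by
  rw [frequently_iff]
  intro S hS
  obtain ⟨a, ha, haS⟩ := mem_nhdsGT_iff_exists_Ioo_subset.1 hS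
  obtain ⟨v, h1, h2⟩ := (G6_dense (z := z) h).inter_open_nonempty (Ioo u a) isOpen_Ioo
    (nonempty_Ioo.2 ha)
  exact ⟨v, haS h1, h2⟩

/-- a value which is taken frequently -/
theorem freq_val {l : Filter ℝ} {A : Set ℝ} {g : ℝ → Fin 5} (h1 : ∃ᶠ v in l, v ∈ A) :
    ∃ c, ∃ᶠ v in l, v ∈ A ∧ g v = c := by
  by_contra hcon
  push Not at hcon
  have h2 : ∀ᶠ v in l, ∀ c, v ∈ A → g v ≠ c := eventually_all.2 hcon
  obtain ⟨v, h3, h4⟩ := (h1.and_eventually h2).exists
  exact h4 (g v) h3 rfl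

/-- **The end of the row of the Pen centres.**  If at every base direction the classes before and
after are the same then there is no such centre. -/
theorem pen_end (h : Irr U T)
    (hmin : ∀ z, 4 ≤ (T z).ncard → ∀ s, s ⊆ T z → s ≠ T z →
      ¬ ∀ᶠ w in 𝓝 z, ∃ i ∈ s, w ∈ U i ∨ (w ∈ XX U ∧ i ∈ Pal U w))
    (hN : Function.Injective N) (P : P5 T z fun i : Fin 5 => N i.castSucc) (hf : N 5 ∉ T z)
    (K : ∀ (u : ℝ) (F : Bool → Ultrafilter ℝ), Fr U T u F →
      cl5 (hub T z (N 5) (F false)) = cl5 (hub T z (N 5) (F true))) : False := by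
  have key : ∀ u : ℝ, ∃ c : Fin 5, ∀ᶠ v in 𝓝[≠] u, v ∈ G6 T z → clv T z (N 5) v = c := by
    intro u
    obtain ⟨c, hc⟩ := freq_val (g := clv T z (N 5)) (freq_left (z := z) h u)
    obtain ⟨c', hc'⟩ := freq_val (g := clv T z (N 5)) (freq_right (z := z) h u)
    have step : ∀ {a b : Fin 5}, (∃ᶠ v in 𝓝[<] u, v ∈ G6 T z ∧ clv T z (N 5) v = a) →
        (∃ᶠ v in 𝓝[>] u, v ∈ G6 T z ∧ clv T z (N 5) v = b) → a = b := by
      intro a b h1 h2
      obtain ⟨F, hF, h3, h4⟩ := germ_of h h1 h2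
      rw [← h3, ← h4]; exact K u F hF
    have hcc := step hc hc'
    subst hcc
    refine ⟨c, ?_⟩
    rw [← nhdsLT_sup_nhdsGT, eventually_sup]
    constructor
    · by_contra hcon
      have h1 : ∃ᶠ v in 𝓝[<] u, v ∈ {v | v ∈ G6 T z ∧ clv T z (N 5) v ≠ c} := by
        refine (not_eventually.1 hcon).mono fun v hv => ?_
        push Not at hv
        exact hv
      obtain ⟨a, ha⟩ := freq_val (g := clv T z (N 5)) h1
      have ha' := step (ha.mono fun v hv => ⟨hv.1.1, hv.2⟩) hc'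
      obtain ⟨v, ⟨h2, h3⟩, h4⟩ := ha.exists
      exact h3 (h4.trans ha')
    · by_contra hcon
      have h1 : ∃ᶠ v in 𝓝[>] u, v ∈ {v | v ∈ G6 T z ∧ clv T z (N 5) v ≠ c} := by
        refine (not_eventually.1 hcon).mono fun v hv => ?_
        push Not at hv
        exact hv
      obtain ⟨a, ha⟩ := freq_val (g := clv T z (N 5)) h1
      have ha' := step hc (ha.mono fun v hv => ⟨hv.1.1, hv.2⟩)
      obtain ⟨v, ⟨h2, h3⟩, h4⟩ := ha.exists
      exact h3 (h4.trans ha'.symm)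
  choose X hX using key
  have hfr : ∀ u : ℝ, ∃ᶠ v in 𝓝[≠] u, v ∈ G6 T z := fun u =>
    (freq_left (z := z) h u).filter_mono (nhdsWithin_mono _ fun v hv => ne_of_lt hv)
  have hloc : IsLocallyConstant X := by
    rw [IsLocallyConstant.iff_eventually_eq]
    intro u
    have h1 := eventually_nhdsWithin_iff.1 (hX u)
    filter_upwards [h1.eventually_nhds] with w hw
    by_cases hwu : w = u
    · rw [hwu]
    · have h2 : ∀ᶠ v in 𝓝[≠] w, v ∈ ({u} : Set ℝ)ᶜ → v ∈ G6 T z → clv T z (N 5) v = X u :=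
        hw.filter_mono nhdsWithin_le_nhds
      have h3 : ∀ᶠ v in 𝓝[≠] w, v ∈ ({u} : Set ℝ)ᶜ :=
        mem_nhdsWithin_of_mem_nhds (isOpen_compl_singleton.mem_nhds
          (show w ∈ ({u} : Set ℝ)ᶜ from hwu))
      obtain ⟨v, hv, h4, h5, h6⟩ := ((hfr w).and_eventually ((hX w).and (h2.and h3))).exists
      rw [← h4 hv, h5 h6 hv]
  have hval : ∀ v ∈ G6 T z, X v = clv T z (N 5) v := by
    intro v hv
    have h1 : ∀ᶠ v' in 𝓝[≠] v, v' ∈ G6 T z ∧ hs T z (N 5) v' = hs T z (N 5) v :=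
      (hs_near hv).filter_mono nhdsWithin_le_nhds
    obtain ⟨v', h2, h3, h4⟩ := ((hX v).and h1).exists
    rw [← h2 h3]
    unfold clv
    rw [h4]
  obtain ⟨v, hv⟩ := (G6_dense (z := z) h).nonempty
  have h1 := hval v hv
  have h2 := hval (v + 1) (G6_add hv)
  have h3 : X (v + 1) = X v := hloc.apply_eq_of_preconnectedSpace _ _
  rw [h1, h2] at h3
  unfold clv at h3
  rw [hs_add] at h3
  exact cl5_turn _ (leg_hs h hmin hN P hf hv) h3

/-- **The end, in names of the five colours.** -/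
theorem pen_end' (h : Irr U T)
    (hmin : ∀ z, 4 ≤ (T z).ncard → ∀ s, s ⊆ T z → s ≠ T z →
      ¬ ∀ᶠ w in 𝓝 z, ∃ i ∈ s, w ∈ U i ∨ (w ∈ XX U ∧ i ∈ Pal U w))
    {c : Fin 5 → Fin 6} (P : P5 T z c)
    (K : ∀ (N : Fin 6 → Fin 6), Function.Injective N → (P5 T z fun i : Fin 5 => N i.castSucc) →
      N 5 ∉ T z → ∀ (u : ℝ) (F : Bool → Ultrafilter ℝ), Fr U T u F →
      cl5 (hub T z (N 5) (F false)) = cl5 (hub T z (N 5) (F true))) : False := by
  obtain ⟨f, hf⟩ : ∃ f : Fin 6, f ∉ T z := by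
    by_contra hcon
    push Not at hcon
    have h1 : T z = univ := eq_univ_of_forall hcon
    have h2 := P.card
    rw [h1] at h2
    simp at h2
  have hN : Function.Injective (Fin.snoc (α := fun _ => Fin 6) c f : Fin 6 → Fin 6) := by
    rw [Fin.snoc_injective_iff]
    exact ⟨P.inj, fun h1 => hf (by rw [P.rng]; exact h1)⟩
  have e1 : (fun i : Fin 5 => (Fin.snoc (α := fun _ => Fin 6) c f : Fin 6 → Fin 6) i.castSucc) =
      c := by
    funext i
    exact Fin.snoc_castSucc (α := fun _ => Fin 6) f c i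
  have e2 : (Fin.snoc (α := fun _ => Fin 6) c f : Fin 6 → Fin 6) 5 = f :=
    Fin.snoc_last (α := fun _ => Fin 6) f c
  have P' : P5 T z fun i : Fin 5 =>
      (Fin.snoc (α := fun _ => Fin 6) c f : Fin 6 → Fin 6) i.castSucc := by rw [e1]; exact P
  have hf' : (Fin.snoc (α := fun _ => Fin 6) c f : Fin 6 → Fin 6) 5 ∉ T z := by rw [e2]; exact hf
  exact pen_end h hmin hN P' hf' (K _ hN P' hf')

end Vale.Agent.P032.H852
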